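import Mathlib

/-!
# P146: Chebyshev polynomials of a symmetric matrix
-/

open Matrix

namespace Vale.Agent.P146.R2.H432

/-- `U_k (lam)` with `U_0 = 1`, `U_1 = lam`, `U_{k+2} = lam U_{k+1} - U_k`. -/
def us (lam : ℝ) : ℕ → ℝ
  | 0 => 1
  | 1 => lam
  | k + 2 => lam * us lam (k + 1) - us lam k

/-- `U_k (A)` for a matrix `A`. -/
def cheb {n : ℕ} : ℕ → Matrix (Fin n) (Fin n) ℝ → Matrix (Fin n) (Fin n) ℝ
  | 0, _ => 1
  | 1, A => A
  | k + 2, A => A * cheb (k + 1) A - cheb k A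

section scalar

/-- the sum `∑_{j ≤ k} z^(k-j) w^j` -/
noncomputable def gs (z w : ℂ) (k : ℕ) : ℂ := ∑ j ∈ Finset.range (k + 1), z ^ (k - j) * w ^ j

lemma gs_succ (z w : ℂ) (k : ℕ) : gs z w (k + 1) = z * gs z w k + w ^ (k + 1) := by
  unfold gs
  rw [Finset.sum_range_succ]
  simp only [Nat.sub_self, pow_zero, one_mul, Finset.mul_sum]
  congr 1
  refine Finset.sum_congr rfl fun j hj => ?_
  have hj' : j ≤ k := by
    have := Finset.mem_range.1 hj
    omega
  have : k + 1 - j = (k - j) + 1 := by omega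
  rw [this, pow_succ]
  ring

lemma gs_rec (z w : ℂ) (k : ℕ) :
    gs z w (k + 2) = (z + w) * gs z w (k + 1) - z * w * gs z w k := by
  rw [gs_succ z w (k + 1), gs_succ z w k]
  ring

lemma gs_norm {z w : ℂ} {q : ℝ} (hz : ‖z‖ ≤ q) (hw : ‖w‖ ≤ q) (k : ℕ) :
    ‖gs z w k‖ ≤ (k + 1) * q ^ k := by
  have hq : 0 ≤ q := (norm_nonneg z).trans hz
  unfold gs
  refine (norm_sum_le _ _).trans ?_
  have h1 : ∀ j ∈ Finset.range (k + 1), ‖z ^ (k - j) * w ^ j‖ ≤ q ^ k := by
    intro j hj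
    have hj' : j ≤ k := by
      have := Finset.mem_range.1 hj
      omega
    rw [norm_mul, norm_pow, norm_pow]
    calc ‖z‖ ^ (k - j) * ‖w‖ ^ j ≤ q ^ (k - j) * q ^ j := by
          gcongr
      _ = q ^ k := by rw [← pow_add]; congr 1; omega
  refine (Finset.sum_le_card_nsmul _ _ _ h1).trans ?_
  simp

lemma us_gs {z w : ℂ} {lam : ℝ} (h1 : z * w = 1) (h2 : z + w = lam) :
    ∀ k, ((us lam k : ℝ) : ℂ) = gs z w k := by
  have key : ∀ k, ((us lam k : ℝ) : ℂ) = gs z w k ∧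
      ((us lam (k + 1) : ℝ) : ℂ) = gs z w (k + 1) := by
    intro k
    induction k with
    | zero =>
      constructor
      · simp [us, gs]
      · simp [us, gs, Finset.sum_range_succ, ← h2]
    | succ k ih =>
      refine ⟨ih.2, ?_⟩
      rw [gs_rec, h1, h2, ← ih.1, ← ih.2]
      show ((us lam (k + 2) : ℝ) : ℂ) = _
      simp only [us]
      push_cast
      ring
  exact fun k => (key k).1

lemma exists_zw (lam : ℝ) : ∃ z w : ℂ, z * w = 1 ∧ z + w = lam := by
  obtain ⟨s, hs⟩ := IsAlgClosed.exists_pow_nat_eq ((lam : ℂ) ^ 2 - 4) (n := 2) (by norm_num)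
  refine ⟨(lam + s) / 2, (lam - s) / 2, ?_, by ring⟩
  linear_combination -(1 / 4 : ℂ) * hs

lemma norm_zw {z w : ℂ} {lam q : ℝ} (h1 : z * w = 1) (h2 : z + w = lam) (hq : 1 ≤ q)
    (hl : |lam| ≤ q + q⁻¹) : ‖z‖ ≤ q := by
  have hq0 : 0 < q := by linarith
  have hz0 : z ≠ 0 := by rintro rfl; simp at h1
  have hr : 0 < ‖z‖ := norm_pos_iff.2 hz0
  by_contra hc
  rw [not_le] at hc
  have hw : w = z⁻¹ := by
    field_simp
    rw [mul_comm]; exact h1
  have him : z.im + w.im = 0 := by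
    have := congrArg Complex.im h2
    simpa using this
  have hre : z.re + w.re = lam := by
    have := congrArg Complex.re h2
    simpa using this
  have hns : 1 < Complex.normSq z := by
    rw [Complex.normSq_eq_norm_sq]
    nlinarith
  rw [hw, Complex.inv_im] at him
  rw [hw, Complex.inv_re] at hre
  have him0 : z.im = 0 := by
    have h3 : z.im * (1 - 1 / Complex.normSq z) = 0 := by
      rw [← him]; ring
    rcases mul_eq_zero.1 h3 with h | h
    · exact h
    · exfalso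
      have h4 : (1 : ℝ) / Complex.normSq z < 1 := by
        rw [div_lt_one (by linarith)]; exact hns
      linarith
  have hn : ‖z‖ = |z.re| := by
    have : z = (z.re : ℂ) := by
      apply Complex.ext <;> simp [him0]
    rw [this]; simp
  have hns2 : Complex.normSq z = z.re ^ 2 := by
    rw [Complex.normSq_apply, him0]; ring
  rw [hns2] at hre
  have hx0 : z.re ≠ 0 := by
    intro h
    rw [hn, h] at hr
    simp at hr
  have hre' : z.re + z.re⁻¹ = lam := by
    rw [← hre]; field_simp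
  have h5 : |lam| = |z.re| + |z.re|⁻¹ := by
    rw [← hre']
    rcases lt_or_gt_of_ne hx0 with h | h
    · have h6 : z.re⁻¹ < 0 := inv_lt_zero.2 h
      rw [abs_of_neg h, abs_of_neg (by linarith)]
      rw [inv_neg]; ring
    · have h6 : 0 < z.re⁻¹ := inv_pos.2 h
      rw [abs_of_pos h, abs_of_pos (by linarith)]
  rw [h5, ← hn] at hl
  have h7 : q⁻¹ - ‖z‖⁻¹ = (‖z‖ - q) * (q⁻¹ * ‖z‖⁻¹) := by
    field_simp
  have h8 : q⁻¹ * ‖z‖⁻¹ < 1 := by
    have h9 : q⁻¹ ≤ 1 := inv_le_one_of_one_le₀ hq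
    have h10 : ‖z‖⁻¹ < 1 := inv_lt_one_of_one_lt₀ (lt_of_le_of_lt hq hc)
    have h11 : 0 < ‖z‖⁻¹ := inv_pos.2 hr
    nlinarith
  nlinarith

/-- `|U_k (lam)| ≤ (k+1) q^k` for `|lam| ≤ q + 1/q`. -/
theorem abs_us_le {lam q : ℝ} (hq : 1 ≤ q) (hl : |lam| ≤ q + q⁻¹) (k : ℕ) :
    |us lam k| ≤ (k + 1) * q ^ k := by
  obtain ⟨z, w, h1, h2⟩ := exists_zw lam
  have hz := norm_zw h1 h2 hq hl
  have hw := norm_zw (by rw [mul_comm]; exact h1) (by rw [add_comm]; exact h2) hq hl
  have := gs_norm hz hw k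
  rw [← us_gs h1 h2 k] at this
  simpa using this

end scalar

section mat

variable {n : ℕ} {A : Matrix (Fin n) (Fin n) ℝ}

/-- an orthonormal eigenbasis in coordinates -/
lemma exists_basis (hA : ∀ i j, A i j = A j i) : ∃ (b : Fin n → Fin n → ℝ) (ev : Fin n → ℝ),
    (∀ v : Fin n → ℝ, ∑ i, v i ^ 2 = ∑ j, (∑ i, b j i * v i) ^ 2) ∧
    (∀ j, ∑ i, b j i ^ 2 = 1) ∧
    (∀ j v, ∑ i, b j i * (A.mulVec v) i = ev j * ∑ i, b j i * v i) ∧
    (∀ j, A.mulVec (b j) = fun i => ev j * b j i) := by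
  have hH : A.IsHermitian := by
    ext i j
    simp [hA i j]
  have hT : Aᵀ = A := by
    ext i j
    exact hA j i
  have hip : ∀ (j : Fin n) (v : Fin n → ℝ),
      inner ℝ (hH.eigenvectorBasis j) (WithLp.toLp 2 v) = ∑ i, (hH.eigenvectorBasis j) i * v i := by
    intro j v
    rw [PiLp.inner_apply]
    refine Finset.sum_congr rfl fun i _ => ?_
    simp [mul_comm]
  refine ⟨fun j => hH.eigenvectorBasis j, hH.eigenvalues, ?_, ?_, ?_, ?_⟩
  · intro v
    have h1 := hH.eigenvectorBasis.sum_sq_norm_inner_right (WithLp.toLp 2 v)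
    rw [EuclideanSpace.norm_sq_eq] at h1
    simp only [Real.norm_eq_abs, sq_abs] at h1
    rw [← h1]
    refine Finset.sum_congr rfl fun j _ => ?_
    rw [← hip j v]
  · intro j
    have h1 := hH.eigenvectorBasis.norm_eq_one j
    have h2 := EuclideanSpace.norm_sq_eq (hH.eigenvectorBasis j)
    rw [h1] at h2
    simp only [Real.norm_eq_abs, sq_abs] at h2
    linarith
  · intro j v
    have h1 := hH.mulVec_eigenvectorBasis j
    have h2 : ∑ i, (hH.eigenvectorBasis j) i * (A.mulVec v) i =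
        (hH.eigenvectorBasis j).ofLp ⬝ᵥ (A.mulVec v) := rfl
    rw [h2, Matrix.dotProduct_mulVec, ← Matrix.mulVec_transpose, hT, h1, smul_dotProduct]
    rfl
  · intro j
    have h1 := hH.mulVec_eigenvectorBasis j
    rw [h1]
    rfl

/-- **The norm of `U_k (A)`.** -/
theorem cheb_norm (hA : ∀ i j, A i j = A j i) {q : ℝ} (hq : 1 ≤ q)
    (hop : ∀ v : Fin n → ℝ, ∑ i, (A.mulVec v) i ^ 2 ≤ (q + q⁻¹) ^ 2 * ∑ i, v i ^ 2) (k : ℕ)
    (v : Fin n → ℝ) :
    ∑ i, ((cheb k A).mulVec v) i ^ 2 ≤ ((k + 1) * q ^ k) ^ 2 * ∑ i, v i ^ 2 := by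
  obtain ⟨b, ev, h1, h2, h3, h4⟩ := exists_basis hA
  have hq0 : 0 < q := by linarith
  have hev : ∀ j, |ev j| ≤ q + q⁻¹ := by
    intro j
    have h5 := hop (b j)
    rw [h4 j, h2 j] at h5
    simp only [mul_pow] at h5
    rw [← Finset.mul_sum, h2 j, mul_one, mul_one] at h5
    have h6 : 0 ≤ q + q⁻¹ := by positivity
    exact abs_le_of_sq_le_sq h5 h6
  have key : ∀ k j, ∑ i, b j i * ((cheb k A).mulVec v) i = us (ev j) k * ∑ i, b j i * v i := by
    intro k j
    have : (∑ i, b j i * ((cheb k A).mulVec v) i = us (ev j) k * ∑ i, b j i * v i) ∧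
        (∑ i, b j i * ((cheb (k + 1) A).mulVec v) i = us (ev j) (k + 1) * ∑ i, b j i * v i) := by
      induction k with
      | zero =>
        constructor
        · simp [cheb, us]
        · simp only [cheb, us]
          exact h3 j v
      | succ k ih =>
        refine ⟨ih.2, ?_⟩
        show ∑ i, b j i * ((cheb (k + 2) A).mulVec v) i = us (ev j) (k + 2) * _
        simp only [cheb, us]
        rw [Matrix.sub_mulVec, ← Matrix.mulVec_mulVec]
        simp only [Pi.sub_apply, mul_sub, Finset.sum_sub_distrib]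
        rw [h3 j, ih.1, ih.2]
        ring
    exact this.1
  rw [h1 v, h1 ((cheb k A).mulVec v), Finset.mul_sum]
  refine Finset.sum_le_sum fun j _ => ?_
  rw [key k j, mul_pow]
  refine mul_le_mul_of_nonneg_right ?_ (sq_nonneg _)
  have h7 := abs_us_le hq (hev j) k
  rw [← sq_abs]
  exact pow_le_pow_left₀ (abs_nonneg _) h7 2

end mat

end Vale.Agent.P146.R2.H432
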