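import Vale.Agent.P146.R2.H432.Mom

/-!
# P146: the contribution of the bad event is superpolynomially small
-/

open MeasureTheory ProbabilityTheory

namespace Vale.Agent.P146.R2.H432

open Vale.Agent.P146.Ub.Cv

/-- the error term coming from the event that `‖W‖ > q + 1/q` -/
noncomputable def errQ (n : ℕ) (q : ℝ) (k : ℕ) : ℝ :=
  Real.sqrt ((gpi (Pair n)).real (BadQ n q)) *
    Real.sqrt (∫ g : Pair n → ℝ, (∑ i, ∑ j, cheb k (WW g) i j ^ 2) ^ 2 ∂(gpi (Pair n)))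

lemma errQ_nonneg (n : ℕ) (q : ℝ) (k : ℕ) : 0 ≤ errQ n q k :=
  mul_nonneg (Real.sqrt_nonneg _) (Real.sqrt_nonneg _)

/-- real variable form of the estimate -/
lemma num_bound {y : ℝ} (hy : 172 ≤ y) {ε : ℝ} (hε : y⁻¹ ≤ ε) (k : ℕ) (hk : (k : ℝ) ≤ y) :
    (10 * y ^ 20 * Real.exp (-(ε ^ 2 / 256 * y ^ 20))) *
      ((y ^ 20) ^ 2 * 16 ^ k * (1 + (4 * k * y ^ 20 : ℝ) ^ (2 * k))) ≤
      Real.exp (-(2 * y ^ 16)) := by
  have hy0 : 0 < y := by linarith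
  have hy1 : 1 ≤ y := by linarith
  have hly : Real.log y ≤ y := (Real.log_le_sub_one_of_pos hy0).trans (by linarith)
  have l0 : 0 ≤ Real.log y := Real.log_nonneg hy1
  -- the exponentials
  have a1 : (10 : ℝ) ≤ Real.exp 3 := by
    have h1 := Real.exp_one_gt_d9
    have h2 : Real.exp 3 = Real.exp 1 ^ 3 := by rw [← Real.exp_nat_mul]; norm_num
    rw [h2]
    calc (10 : ℝ) ≤ 2.7 ^ 3 := by norm_num
      _ ≤ Real.exp 1 ^ 3 := pow_le_pow_left₀ (by norm_num) (by linarith) 3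
  have a2 : ∀ m : ℕ, y ^ m ≤ Real.exp (m * y) := by
    intro m
    have h1 : y ≤ Real.exp y := by linarith [Real.add_one_le_exp y]
    calc y ^ m ≤ Real.exp y ^ m := pow_le_pow_left₀ hy0.le h1 m
      _ = Real.exp (m * y) := by rw [← Real.exp_nat_mul]
  have a3 : Real.exp (-(ε ^ 2 / 256 * y ^ 20)) ≤ Real.exp (-(y ^ 18 / 256)) := by
    refine Real.exp_le_exp.2 ?_
    have h1 : y⁻¹ ^ 2 ≤ ε ^ 2 := pow_le_pow_left₀ (by positivity) hε 2
    have h2 : y ^ 18 = y⁻¹ ^ 2 * y ^ 20 := by field_simp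
    have h3 : y⁻¹ ^ 2 * y ^ 20 ≤ ε ^ 2 * y ^ 20 := mul_le_mul_of_nonneg_right h1 (by positivity)
    rw [← h2] at h3
    linarith
  have a4 : (16 : ℝ) ^ k ≤ Real.exp (3 * y) := by
    have h1 : (16 : ℝ) ≤ Real.exp 3 := by
      have h1 := Real.exp_one_gt_d9
      have h2 : Real.exp 3 = Real.exp 1 ^ 3 := by rw [← Real.exp_nat_mul]; norm_num
      rw [h2]
      calc (16 : ℝ) ≤ 2.7 ^ 3 := by norm_num
        _ ≤ Real.exp 1 ^ 3 := pow_le_pow_left₀ (by norm_num) (by linarith) 3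
    calc (16 : ℝ) ^ k ≤ Real.exp 3 ^ k := pow_le_pow_left₀ (by norm_num) h1 k
      _ = Real.exp (k * 3) := by rw [← Real.exp_nat_mul]
      _ ≤ Real.exp (3 * y) := Real.exp_le_exp.2 (by linarith)
  have a5 : (4 * k * y ^ 20 : ℝ) ^ (2 * k) ≤ Real.exp (46 * y ^ 2) := by
    have hk0 : (0 : ℝ) ≤ k := Nat.cast_nonneg k
    have h1 : (4 * k * y ^ 20 : ℝ) ≤ Real.exp (2 + 21 * y) := by
      calc (4 * k * y ^ 20 : ℝ) ≤ 4 * y * y ^ 20 := by
            have : (4 : ℝ) * k ≤ 4 * y := by linarith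
            exact mul_le_mul_of_nonneg_right this (by positivity)
        _ = 4 * y ^ 21 := by ring
        _ ≤ Real.exp 2 * Real.exp ((21 : ℕ) * y) := by
            have h2 : (4 : ℝ) ≤ Real.exp 2 := by
              have h1 := Real.exp_one_gt_d9
              have h2 : Real.exp 2 = Real.exp 1 ^ 2 := by rw [← Real.exp_nat_mul]; norm_num
              rw [h2]
              calc (4 : ℝ) ≤ 2.7 ^ 2 := by norm_num
                _ ≤ Real.exp 1 ^ 2 := pow_le_pow_left₀ (by norm_num) (by linarith) 2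
            exact mul_le_mul h2 (a2 21) (by positivity) (by positivity)
        _ = Real.exp (2 + 21 * y) := by rw [← Real.exp_add]; norm_num
    calc (4 * k * y ^ 20 : ℝ) ^ (2 * k) ≤ Real.exp (2 + 21 * y) ^ (2 * k) :=
          pow_le_pow_left₀ (by positivity) h1 _
      _ = Real.exp ((2 * k : ℕ) * (2 + 21 * y)) := by rw [← Real.exp_nat_mul]
      _ ≤ Real.exp (46 * y ^ 2) := by
          refine Real.exp_le_exp.2 ?_
          push_cast
          nlinarith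
  have a6 : 1 + (4 * k * y ^ 20 : ℝ) ^ (2 * k) ≤ Real.exp (1 + 46 * y ^ 2) := by
    have h1 : (1 : ℝ) ≤ Real.exp (46 * y ^ 2) := Real.one_le_exp (by positivity)
    have h2 : (2 : ℝ) ≤ Real.exp 1 := by linarith [Real.exp_one_gt_d9]
    rw [Real.exp_add]
    nlinarith
  have hk0 : (0 : ℝ) ≤ (4 * k * y ^ 20 : ℝ) ^ (2 * k) := by positivity
  calc (10 * y ^ 20 * Real.exp (-(ε ^ 2 / 256 * y ^ 20))) *
      ((y ^ 20) ^ 2 * 16 ^ k * (1 + (4 * k * y ^ 20 : ℝ) ^ (2 * k)))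
      = 10 * y ^ 60 * Real.exp (-(ε ^ 2 / 256 * y ^ 20)) * 16 ^ k *
        (1 + (4 * k * y ^ 20 : ℝ) ^ (2 * k)) := by ring
    _ ≤ Real.exp 3 * Real.exp ((60 : ℕ) * y) * Real.exp (-(y ^ 18 / 256)) * Real.exp (3 * y) *
        Real.exp (1 + 46 * y ^ 2) := by
        gcongr
        exact a2 60
    _ = Real.exp (3 + (60 : ℕ) * y + -(y ^ 18 / 256) + 3 * y + (1 + 46 * y ^ 2)) := by
        simp only [Real.exp_add]
    _ ≤ Real.exp (-(2 * y ^ 16)) := by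
        refine Real.exp_le_exp.2 ?_
        push_cast
        have h1 : y ≤ y ^ 2 := by nlinarith
        have h2 : (1 : ℝ) ≤ y ^ 2 := by nlinarith
        have h3 : y ^ 2 ≤ y ^ 16 := pow_le_pow_right₀ hy1 (by norm_num)
        have h4 : (29440 : ℝ) ≤ y ^ 2 := by nlinarith
        have h5 : 29440 * y ^ 16 ≤ y ^ 18 := by
          calc 29440 * y ^ 16 ≤ y ^ 2 * y ^ 16 := mul_le_mul_of_nonneg_right h4 (by positivity)
            _ = y ^ 18 := by ring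
        linarith

/-- **The error term is at most `exp (-n^(4/5))`.** -/
theorem errQ_le {n : ℕ} (hn : 172 ^ 20 ≤ n) {q : ℝ} (hq : 1 < q) (hq1 : q + q⁻¹ - 2 ≤ 1)
    (hq2 : (n : ℝ) ^ (-(1 / 20) : ℝ) ≤ q + q⁻¹ - 2) {k : ℕ} (hk : (k : ℝ) ≤ (n : ℝ) ^ (1 / 20 : ℝ)) :
    errQ n q k ≤ Real.exp (-(n : ℝ) ^ (4 / 5 : ℝ)) := by
  have hn0 : 0 < n := lt_of_lt_of_le (by norm_num) hn
  have hnr : (0 : ℝ) ≤ n := Nat.cast_nonneg n
  obtain ⟨y, hy⟩ : ∃ y, y = (n : ℝ) ^ (1 / 20 : ℝ) := ⟨_, rfl⟩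
  have hy0 : 0 ≤ y := by rw [hy]; positivity
  have hyn : y ^ 20 = n := by
    rw [hy, ← Real.rpow_natCast, ← Real.rpow_mul hnr]
    norm_num
  have hy16 : (n : ℝ) ^ (4 / 5 : ℝ) = y ^ 16 := by
    rw [hy, ← Real.rpow_natCast, ← Real.rpow_mul hnr]
    norm_num
  have hyinv : (n : ℝ) ^ (-(1 / 20) : ℝ) = y⁻¹ := by
    rw [hy, Real.rpow_neg hnr]
  have hy172 : 172 ≤ y := by
    have h1 : ((172 : ℝ)) ^ 20 ≤ y ^ 20 := by
      rw [hyn]; exact_mod_cast hn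
    exact le_of_pow_le_pow_left₀ (by norm_num) hy0 h1
  rw [← hy] at hk
  rw [hyinv] at hq2
  have h1 := badQ_le hn0 hq hq1
  have h2 := cheb_moment n k
  have h3 := num_bound hy172 hq2 k hk
  rw [hyn] at h3
  unfold errQ
  rw [← Real.sqrt_mul measureReal_nonneg]
  have h4 : (gpi (Pair n)).real (BadQ n q) *
      ∫ g : Pair n → ℝ, (∑ i, ∑ j, cheb k (WW g) i j ^ 2) ^ 2 ∂(gpi (Pair n)) ≤
      Real.exp (-(2 * y ^ 16)) := by
    refine le_trans (mul_le_mul h1 h2 (integral_nonneg fun _ => sq_nonneg _) ?_) h3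
    positivity
  have h5 : Real.exp (-(2 * y ^ 16)) = Real.exp (-(n : ℝ) ^ (4 / 5 : ℝ)) ^ 2 := by
    rw [← Real.exp_nat_mul, hy16]
    congr 1
    push_cast
    ring
  rw [h5] at h4
  exact (Real.sqrt_le_sqrt h4).trans (le_of_eq (Real.sqrt_sq (Real.exp_pos _).le))

end Vale.Agent.P146.R2.H432
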