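import Vale.Agent.P146.R2.H432.Err
import Vale.Agent.P146.R2.H597.Par

/-!
# P146: the error term for the chosen parameters
-/

open MeasureTheory ProbabilityTheory Filter Topology

namespace Vale.Agent.P146.R2.H432

open Vale.Agent.P146.Ub.Cv

lemma pow_mul_exp_small (A : ℕ) : ∀ᶠ n : ℕ in atTop,
    (n : ℝ) ^ A * Real.exp (-(n : ℝ) ^ (4 / 5 : ℝ)) ≤ 1 := by
  have h1 := Real.tendsto_pow_mul_exp_neg_atTop_nhds_zero (2 * A)
  have h2 : Tendsto (fun n : ℕ => (n : ℝ) ^ (4 / 5 : ℝ)) atTop atTop :=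
    (tendsto_rpow_atTop (by norm_num)).comp tendsto_natCast_atTop_atTop
  have h3 := h1.comp h2
  filter_upwards [(tendsto_order.1 h3).2 1 one_pos, eventually_ge_atTop 1] with n hn hn1
  have hn1' : (1 : ℝ) ≤ n := by exact_mod_cast hn1
  simp only [Function.comp] at hn
  refine le_trans (mul_le_mul_of_nonneg_right ?_ (Real.exp_pos _).le) hn.le
  rw [← Real.rpow_natCast, ← Real.rpow_natCast, ← Real.rpow_mul (by linarith)]
  refine Real.rpow_le_rpow_of_exponent_le hn1' ?_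
  have : (0 : ℝ) ≤ A := Nat.cast_nonneg A
  push_cast
  linarith

/-- **The error term for the chosen parameters.** -/
theorem err_num (A : ℕ) : ∀ᶠ n : ℕ in atTop, ∀ t : ℝ, 0 ≤ t → 1 / zz0 n ^ 2 ≤ 1 - t →
    ∀ k ≤ LL n t, (n : ℝ) ^ A * errQ n (qq n t) k ≤ 1 / zz0 n ^ 80 := by
  filter_upwards [params, pow_mul_exp_small (A + 1), eventually_ge_atTop (172 ^ 20)]
    with n hp he hn t ht0 htau k hk
  obtain ⟨hz100, -, hL, -⟩ := hp t ht0 htau
  obtain ⟨z, hz⟩ : ∃ z, z = zz0 n := ⟨_, rfl⟩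
  rw [← hz] at hz100 hL htau ⊢
  have hz0 : 0 < z := by linarith
  have hz1 : 1 ≤ z := by linarith
  have hzn : z ^ 8000 = n := by rw [hz]; exact zz0_pow n
  have hnr : (0 : ℝ) ≤ n := Nat.cast_nonneg n
  have hn0 : (0 : ℝ) < n := by rw [← hzn]; positivity
  have h20 : (n : ℝ) ^ (1 / 20 : ℝ) = z ^ 400 := by
    rw [hz]
    unfold zz0
    rw [← Real.rpow_natCast, ← Real.rpow_mul hnr]
    norm_num
  have h20' : (n : ℝ) ^ (-(1 / 20) : ℝ) = (z ^ 400)⁻¹ := by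
    rw [Real.rpow_neg hnr, h20]
  obtain ⟨q, hq⟩ : ∃ q, q = qq n t := ⟨_, rfl⟩
  have hq' : q = 1 + (1 - t) / z ^ 8 := by rw [hq, hz]; rfl
  rw [← hq]
  have hd0 : 1 / z ^ 10 ≤ q - 1 := by
    rw [hq']
    have h1 : (1 / z ^ 2) / z ^ 8 ≤ (1 - t) / z ^ 8 :=
      div_le_div_of_nonneg_right htau (by positivity)
    have h2 : (1 / z ^ 2) / z ^ 8 = 1 / z ^ 10 := by field_simp
    linarith
  have hd1 : q - 1 ≤ 1 := by
    rw [hq']
    have h1 : (1 - t) / z ^ 8 ≤ 1 := by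
      rw [div_le_one (by positivity)]
      have : 1 ≤ z ^ 8 := one_le_pow₀ hz1
      linarith
    linarith
  have hd2 : 0 < q - 1 := lt_of_lt_of_le (by positivity) hd0
  have hq1 : 1 < q := by linarith
  have hq0 : 0 < q := by linarith
  have hε : q + q⁻¹ - 2 = (q - 1) ^ 2 / q := by
    field_simp; ring
  have hε1 : q + q⁻¹ - 2 ≤ 1 := by
    rw [hε, div_le_one hq0]
    nlinarith
  have hε2 : (n : ℝ) ^ (-(1 / 20) : ℝ) ≤ q + q⁻¹ - 2 := by
    rw [h20', hε, inv_eq_one_div, div_le_div_iff₀ (by positivity) hq0, one_mul]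
    have h1 : (1 / z ^ 10) ^ 2 ≤ (q - 1) ^ 2 := pow_le_pow_left₀ (by positivity) hd0 2
    have h2 : (1 / z ^ 10) ^ 2 * z ^ 400 ≤ (q - 1) ^ 2 * z ^ 400 :=
      mul_le_mul_of_nonneg_right h1 (by positivity)
    have h3 : (1 / z ^ 10) ^ 2 * z ^ 400 = z ^ 380 := by
      field_simp
    have h4 : z ≤ z ^ 380 := le_self_pow₀ hz1 (by norm_num)
    rw [h3] at h2
    linarith
  have hk' : (k : ℝ) ≤ (n : ℝ) ^ (1 / 20 : ℝ) := by
    rw [h20]
    have h1 : (k : ℝ) ≤ LL n t := by exact_mod_cast hk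
    have h2 : z ^ 4 ≤ z ^ 400 := pow_le_pow_right₀ hz1 (by norm_num)
    linarith
  have h5 := errQ_le hn hq1 hε1 hε2 hk'
  have h6 : z ^ 80 ≤ n := by
    rw [← hzn]
    exact pow_le_pow_right₀ hz1 (by norm_num)
  have h7 : 1 / (n : ℝ) ≤ 1 / z ^ 80 := one_div_le_one_div_of_le (by positivity) h6
  refine le_trans ?_ h7
  rw [le_div_iff₀ hn0]
  calc (n : ℝ) ^ A * errQ n q k * n = (n : ℝ) ^ (A + 1) * errQ n q k := by ring
    _ ≤ (n : ℝ) ^ (A + 1) * Real.exp (-(n : ℝ) ^ (4 / 5 : ℝ)) :=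
        mul_le_mul_of_nonneg_left h5 (by positivity)
    _ ≤ 1 := he

/-- the same with a constant factor, and for all the degrees at once -/
theorem err_num' (K : ℝ) (A : ℕ) : ∀ᶠ n : ℕ in atTop, ∀ t : ℝ, 0 ≤ t → 1 / zz0 n ^ 2 ≤ 1 - t →
    ∀ k ≤ LL n t, K * (n : ℝ) ^ A * errQ n (qq n t) k ≤ 1 / zz0 n ^ 80 := by
  have h1 : ∀ᶠ n : ℕ in atTop, K ≤ (n : ℝ) := tendsto_natCast_atTop_atTop.eventually_ge_atTop K
  filter_upwards [err_num (A + 1), h1] with n hn hK t ht0 ht k hk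
  refine le_trans ?_ (hn t ht0 ht k hk)
  have h2 : K * (n : ℝ) ^ A ≤ (n : ℝ) ^ (A + 1) := by
    rw [pow_succ, mul_comm]
    exact mul_le_mul_of_nonneg_left hK (by positivity)
  exact mul_le_mul_of_nonneg_right h2 (errQ_nonneg n _ k)

end Vale.Agent.P146.R2.H432
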