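import Vale.Agent.P146.R2.H432.Cheb
import Vale.Agent.P146.H605.Conv
import Vale.Agent.P150.Bdl.B11

/-!
# P146: moments and the operator norm of `U_k (W)`
-/

open MeasureTheory ProbabilityTheory

namespace Vale.Agent.P146.R2.H432

open Vale.Agent.P146.Ub.Cv

section gauss

variable {ι : Type*} [Fintype ι] [DecidableEq ι]

/-- even moments of a standard Gaussian variable -/
lemma int_even (e : ι) (m : ℕ) : ∫ g : ι → ℝ, g e ^ (2 * m) ∂(gpi ι) ≤ (2 * m : ℝ) ^ m := by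
  induction m with
  | zero => simp
  | succ m ih =>
    have hd : ∀ (g : ι → ℝ) t, HasDerivAt (fun t => (Function.update g e t) e ^ (2 * m + 1))
        ((2 * m + 1 : ℝ) * (Function.update g e t) e ^ (2 * m)) t := by
      intro g t
      simp only [Function.update_self]
      have := hasDerivAt_pow (2 * m + 1) t
      simpa using this
    have h1 := ibp e (Φ := fun g => g e ^ (2 * m + 1))
      (Φ' := fun g => (2 * m + 1 : ℝ) * g e ^ (2 * m)) ((Dom.coord e).pow _)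
      (((Dom.coord e).pow _).const_mul _) hd
    have h2 : ∀ g : ι → ℝ, g e ^ (2 * (m + 1)) = g e * g e ^ (2 * m + 1) := fun g => by ring
    simp_rw [h2]
    rw [h1, integral_const_mul]
    have hm : (0 : ℝ) ≤ m := Nat.cast_nonneg m
    calc (2 * m + 1 : ℝ) * ∫ g : ι → ℝ, g e ^ (2 * m) ∂(gpi ι)
        ≤ (2 * m + 1 : ℝ) * (2 * m : ℝ) ^ m := mul_le_mul_of_nonneg_left ih (by positivity)
      _ ≤ (2 * (m + 1) : ℝ) * (2 * (m + 1) : ℝ) ^ m := by
          refine mul_le_mul (by linarith) (pow_le_pow_left₀ (by positivity) (by linarith) m)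
            (by positivity) (by positivity)
      _ = (2 * ((m + 1 : ℕ) : ℝ)) ^ (m + 1) := by push_cast; ring

/-- moments of the squared norm of a standard Gaussian vector -/
lemma int_sumsq (m : ℕ) : ∫ g : ι → ℝ, (∑ e, g e ^ 2) ^ m ∂(gpi ι) ≤
    (Fintype.card ι : ℝ) ^ m * (2 * m : ℝ) ^ m := by
  rcases m with _ | m
  · simp
  rcases isEmpty_or_nonempty ι with hι | hι
  · simp
  have hN : (0 : ℝ) < Fintype.card ι := by exact_mod_cast Fintype.card_pos
  have h1 : ∀ g : ι → ℝ, (∑ e, g e ^ 2) ^ (m + 1) ≤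
      (Fintype.card ι : ℝ) ^ m * ∑ e, g e ^ (2 * (m + 1)) := by
    intro g
    have h2 := pow_sum_div_card_le_sum_pow (s := (Finset.univ : Finset ι))
      (f := fun e => g e ^ 2) (fun e _ => sq_nonneg _) m
    rw [div_le_iff₀ (by rw [Finset.card_univ]; positivity), Finset.card_univ] at h2
    refine h2.trans (le_of_eq ?_)
    rw [mul_comm]
    congr 1
    refine Finset.sum_congr rfl fun e _ => ?_
    rw [pow_mul]
  have d1 : Dom (fun g : ι → ℝ => (∑ e, g e ^ 2) ^ (m + 1)) :=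
    (Dom.sum _ fun e _ => (Dom.coord e).pow 2).pow _
  have d2 : ∀ e : ι, Dom (fun g : ι → ℝ => g e ^ (2 * (m + 1))) := fun e => (Dom.coord e).pow _
  calc ∫ g : ι → ℝ, (∑ e, g e ^ 2) ^ (m + 1) ∂(gpi ι)
      ≤ ∫ g : ι → ℝ, (Fintype.card ι : ℝ) ^ m * ∑ e, g e ^ (2 * (m + 1)) ∂(gpi ι) :=
        int_mono d1 ((Dom.sum _ fun e _ => d2 e).const_mul _) h1
    _ = (Fintype.card ι : ℝ) ^ m * ∑ e, ∫ g : ι → ℝ, g e ^ (2 * (m + 1)) ∂(gpi ι) := by
        rw [integral_const_mul, int_sum _ fun e _ => d2 e]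
    _ ≤ (Fintype.card ι : ℝ) ^ m * ∑ _e : ι, (2 * ((m + 1 : ℕ) : ℝ)) ^ (m + 1) := by
        refine mul_le_mul_of_nonneg_left (Finset.sum_le_sum fun e _ => int_even e (m + 1))
          (by positivity)
    _ = _ := by
        rw [Finset.sum_const, Finset.card_univ, nsmul_eq_mul, pow_succ (Fintype.card ι : ℝ) m]
        ring

end gauss

section fro

variable {n : ℕ}

/-- squared Frobenius norm -/
def fro (A : Matrix (Fin n) (Fin n) ℝ) : ℝ := ∑ i, ∑ j, A i j ^ 2

lemma fro_nonneg (A : Matrix (Fin n) (Fin n) ℝ) : 0 ≤ fro A :=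
  Finset.sum_nonneg fun _ _ => Finset.sum_nonneg fun _ _ => sq_nonneg _

lemma fro_mul (A B : Matrix (Fin n) (Fin n) ℝ) : fro (A * B) ≤ fro A * fro B := by
  have h1 : ∀ i j, (A * B) i j ^ 2 ≤ (∑ l, A i l ^ 2) * (∑ l, B l j ^ 2) := by
    intro i j
    rw [Matrix.mul_apply]
    exact Finset.sum_mul_sq_le_sq_mul_sq _ _ _
  calc fro (A * B) ≤ ∑ i, ∑ j, (∑ l, A i l ^ 2) * (∑ l, B l j ^ 2) :=
        Finset.sum_le_sum fun i _ => Finset.sum_le_sum fun j _ => h1 i j
    _ = fro A * fro B := by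
        unfold fro
        rw [Finset.sum_comm (f := fun i j => B i j ^ 2), Finset.sum_mul_sum]

lemma fro_sub (A B : Matrix (Fin n) (Fin n) ℝ) : fro (A - B) ≤ 2 * fro A + 2 * fro B := by
  unfold fro
  rw [Finset.mul_sum, Finset.mul_sum, ← Finset.sum_add_distrib]
  refine Finset.sum_le_sum fun i _ => ?_
  rw [Finset.mul_sum, Finset.mul_sum, ← Finset.sum_add_distrib]
  refine Finset.sum_le_sum fun j _ => ?_
  rw [Matrix.sub_apply]
  nlinarith [sq_nonneg (A i j + B i j)]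

lemma fro_one : fro (1 : Matrix (Fin n) (Fin n) ℝ) = n := by
  unfold fro
  simp [Matrix.one_apply]

lemma fro_cheb (A : Matrix (Fin n) (Fin n) ℝ) (k : ℕ) :
    fro (cheb k A) ≤ n * (2 * (1 + fro A)) ^ k := by
  rcases Nat.eq_zero_or_pos n with hn | hn
  · subst hn
    simp [fro]
  have hn1 : (1 : ℝ) ≤ n := by exact_mod_cast hn
  have hA := fro_nonneg A
  have key : fro (cheb k A) ≤ n * (2 * (1 + fro A)) ^ k ∧
      fro (cheb (k + 1) A) ≤ n * (2 * (1 + fro A)) ^ (k + 1) := by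
    induction k with
    | zero =>
      constructor
      · simp [cheb, fro_one]
      · simp only [cheb, zero_add, pow_one]
        nlinarith
    | succ k ih =>
      refine ⟨ih.2, ?_⟩
      show fro (A * cheb (k + 1) A - cheb k A) ≤ _
      have h1 := fro_sub (A * cheb (k + 1) A) (cheb k A)
      have h2 := fro_mul A (cheb (k + 1) A)
      have h3 := mul_le_mul_of_nonneg_left ih.2 hA
      obtain ⟨P, hP⟩ : ∃ P, P = n * (2 * (1 + fro A)) ^ k := ⟨_, rfl⟩
      have hP0 : 0 ≤ P := by rw [hP]; positivity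
      have e1 : n * (2 * (1 + fro A)) ^ (k + 1) = P * (2 * (1 + fro A)) := by rw [hP]; ring
      have e2 : n * (2 * (1 + fro A)) ^ (k + 1 + 1) = P * (2 * (1 + fro A)) ^ 2 := by rw [hP]; ring
      rw [e1] at h3
      rw [e2]
      have h4 := ih.1
      rw [← hP] at h4
      nlinarith [mul_nonneg hP0 hA, mul_nonneg hP0 (mul_nonneg hA hA)]
  exact key.1

end fro

section sk

variable {n : ℕ}

/-- the matrix `g / √n` -/
noncomputable abbrev WW (g : Pair n → ℝ) : Matrix (Fin n) (Fin n) ℝ :=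
  Vale.Agent.P150.F.skM g

lemma WW_symm (g : Pair n → ℝ) (i j : Fin n) : WW g i j = WW g j i := by
  show Vale.Agent.P150.gsym g i j / Real.sqrt n = Vale.Agent.P150.gsym g j i / Real.sqrt n
  rw [Vale.Agent.P150.gsym_comm]

lemma dom_gsym (i j : Fin n) : Dom (fun g : Pair n → ℝ => Vale.Agent.P150.gsym g i j) := by
  unfold Vale.Agent.P150.gsym
  split_ifs with h1 h2
  · exact Dom.coord (⟨(i, j), h1⟩ : Pair n)
  · exact Dom.coord (⟨(j, i), h2⟩ : Pair n)
  · exact Dom.const 0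

lemma dom_WW (i j : Fin n) : Dom (fun g : Pair n → ℝ => WW g i j) := by
  have h := (dom_gsym i j).const_mul (Real.sqrt n)⁻¹
  refine h.congr fun g => ?_
  show Vale.Agent.P150.gsym g i j / Real.sqrt n = _
  rw [div_eq_inv_mul]

/-- the entries of `U_k (W)` are continuous of exponential growth -/
lemma dom_cheb (k : ℕ) : ∀ i j : Fin n, Dom (fun g : Pair n → ℝ => cheb k (WW g) i j) := by
  have key : (∀ i j : Fin n, Dom (fun g : Pair n → ℝ => cheb k (WW g) i j)) ∧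
      ∀ i j : Fin n, Dom (fun g : Pair n → ℝ => cheb (k + 1) (WW g) i j) := by
    induction k with
    | zero =>
      refine ⟨fun i j => ?_, fun i j => ?_⟩
      · simp only [cheb]
        exact Dom.const _
      · simp only [cheb]
        exact dom_WW i j
    | succ k ih =>
      refine ⟨ih.2, fun i j => ?_⟩
      have h := (Dom.sum Finset.univ fun l (_ : l ∈ Finset.univ) =>
        (dom_WW (n := n) i l).mul (ih.2 l j)).sub (ih.1 i j)
      refine h.congr fun g => ?_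
      show (WW g * cheb (k + 1) (WW g) - cheb k (WW g)) i j = _
      rw [Matrix.sub_apply, Matrix.mul_apply]
  exact key.1

lemma card_pair : 2 * (Fintype.card (Pair n) : ℝ) ≤ (n : ℝ) ^ 2 := by
  have h := Vale.Agent.P150.sum_pairs (n := n) fun _ _ => 1
  simp only [Finset.sum_const, Finset.card_univ, Fintype.card_fin, nsmul_eq_mul, mul_one] at h
  have h2 : (0 : ℝ) ≤ n := Nat.cast_nonneg n
  have h3 : (Fintype.card (Vale.Agent.P150.Pairs n) : ℝ) = Fintype.card (Pair n) := rfl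
  rw [h3] at h
  nlinarith

lemma fro_WW (g : Pair n → ℝ) : fro (WW g) = 2 / n * ∑ p, g p ^ 2 := by
  unfold fro
  have h := Vale.Agent.P150.sum_pairs (n := n) fun i j => WW g i j ^ 2
  rw [h]
  have e1 : ∀ i : Fin n, WW g i i ^ 2 = 0 := by
    intro i
    show (Vale.Agent.P150.gsym g i i / Real.sqrt n) ^ 2 = 0
    rw [Vale.Agent.P150.gsym_self]
    simp
  simp_rw [e1]
  rw [Finset.sum_const_zero, add_zero, Finset.mul_sum]
  refine Finset.sum_congr rfl fun p _ => ?_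
  show (Vale.Agent.P150.gsym g p.1.1 p.1.2 / Real.sqrt n) ^ 2 +
    (Vale.Agent.P150.gsym g p.1.2 p.1.1 / Real.sqrt n) ^ 2 = _
  rw [Vale.Agent.P150.gsym_pair, Vale.Agent.P150.gsym_pair', div_pow,
    Real.sq_sqrt (Nat.cast_nonneg n)]
  ring

/-- **Fourth moment of the Frobenius norm of `U_k (W)`.** -/
theorem cheb_moment (n k : ℕ) :
    ∫ g : Pair n → ℝ, (∑ i, ∑ j, cheb k (WW g) i j ^ 2) ^ 2 ∂(gpi (Pair n)) ≤
      n ^ 2 * 16 ^ k * (1 + (4 * k * n : ℝ) ^ (2 * k)) := by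
  have d1 : Dom (fun g : Pair n → ℝ => (∑ i, ∑ j, cheb k (WW g) i j ^ 2) ^ 2) :=
    (Dom.sum _ fun i _ => Dom.sum _ fun j _ => (dom_cheb k i j).pow 2).pow 2
  have d0 : Dom (fun g : Pair n → ℝ => (∑ p, g p ^ 2) ^ (2 * k)) :=
    (Dom.sum _ fun p _ => (Dom.coord p).pow 2).pow _
  have hn : (0 : ℝ) ≤ n := Nat.cast_nonneg n
  have h1 : ∀ g : Pair n → ℝ, (∑ i, ∑ j, cheb k (WW g) i j ^ 2) ^ 2 ≤
      n ^ 2 * 16 ^ k * (1 + (2 / n : ℝ) ^ (2 * k) * (∑ p, g p ^ 2) ^ (2 * k)) := by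
    intro g
    have h2 := fro_cheb (WW g) k
    obtain ⟨h, hh⟩ : ∃ h, h = fro (WW g) := ⟨_, rfl⟩
    rw [← hh] at h2
    have hh0 : 0 ≤ h := by rw [hh]; exact fro_nonneg _
    have h3 : (∑ i, ∑ j, cheb k (WW g) i j ^ 2) ^ 2 ≤ (n * (2 * (1 + h)) ^ k) ^ 2 :=
      pow_le_pow_left₀ (fro_nonneg _) h2 2
    have h4 : (1 + h) ^ (2 * k) ≤ 2 ^ (2 * k) * (1 + h ^ (2 * k)) := by
      rcases le_total h 1 with h5 | h5
      · calc (1 + h) ^ (2 * k) ≤ 2 ^ (2 * k) :=
            pow_le_pow_left₀ (by linarith) (by linarith) _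
          _ ≤ 2 ^ (2 * k) * (1 + h ^ (2 * k)) := by
            have : 0 ≤ h ^ (2 * k) := pow_nonneg hh0 _
            nlinarith [show (0 : ℝ) < 2 ^ (2 * k) by positivity]
      · calc (1 + h) ^ (2 * k) ≤ (2 * h) ^ (2 * k) :=
            pow_le_pow_left₀ (by linarith) (by linarith) _
          _ = 2 ^ (2 * k) * h ^ (2 * k) := by rw [mul_pow]
          _ ≤ 2 ^ (2 * k) * (1 + h ^ (2 * k)) := by
            nlinarith [show (0 : ℝ) < 2 ^ (2 * k) by positivity]
    have h6 : h ^ (2 * k) = (2 / n : ℝ) ^ (2 * k) * (∑ p, g p ^ 2) ^ (2 * k) := by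
      rw [hh, fro_WW, mul_pow]
    rw [← h6]
    calc (∑ i, ∑ j, cheb k (WW g) i j ^ 2) ^ 2 ≤ (n * (2 * (1 + h)) ^ k) ^ 2 := h3
      _ = n ^ 2 * 4 ^ k * (1 + h) ^ (2 * k) := by
          have : (4 : ℝ) ^ k = (2 ^ k) ^ 2 := by rw [← pow_mul, mul_comm, pow_mul]; norm_num
          rw [this, mul_pow 2 (1 + h) k, mul_comm 2 k, pow_mul]
          ring
      _ ≤ n ^ 2 * 4 ^ k * (2 ^ (2 * k) * (1 + h ^ (2 * k))) :=
          mul_le_mul_of_nonneg_left h4 (by positivity)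
      _ = n ^ 2 * 16 ^ k * (1 + h ^ (2 * k)) := by
          have e2 : (2 : ℝ) ^ (2 * k) = 4 ^ k := by rw [pow_mul]; norm_num
          have e3 : (16 : ℝ) ^ k = 4 ^ k * 4 ^ k := by rw [← mul_pow]; norm_num
          rw [e2, e3]
          ring
  have h7 := int_mono d1 (((Dom.const 1).add (d0.const_mul _)).const_mul _) h1
  refine h7.trans ?_
  rw [integral_const_mul, int_add (Dom.const 1) (d0.const_mul _), integral_const_mul]
  refine mul_le_mul_of_nonneg_left ?_ (by positivity)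
  have e4 : ∫ _ : Pair n → ℝ, (1 : ℝ) ∂(gpi (Pair n)) = 1 := by simp
  rw [e4]
  have h8 := int_sumsq (ι := Pair n) (2 * k)
  have h9 : (2 / n : ℝ) ^ (2 * k) * ∫ g : Pair n → ℝ, (∑ p, g p ^ 2) ^ (2 * k) ∂(gpi (Pair n)) ≤
      (4 * k * n : ℝ) ^ (2 * k) := by
    calc _ ≤ (2 / n : ℝ) ^ (2 * k) * ((Fintype.card (Pair n) : ℝ) ^ (2 * k) *
          (2 * ((2 * k : ℕ) : ℝ)) ^ (2 * k)) := mul_le_mul_of_nonneg_left h8 (by positivity)
      _ = (2 / n * Fintype.card (Pair n) * (2 * ((2 * k : ℕ) : ℝ))) ^ (2 * k) := by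
          rw [mul_pow, mul_pow]; ring
      _ ≤ (4 * k * n : ℝ) ^ (2 * k) := by
          refine pow_le_pow_left₀ (by positivity) ?_ _
          have h10 : 2 / (n : ℝ) * Fintype.card (Pair n) ≤ n := by
            rcases Nat.eq_zero_or_pos n with h0 | h0
            · subst h0; simp
            · have hn' : (0 : ℝ) < n := by exact_mod_cast h0
              rw [div_mul_eq_mul_div, div_le_iff₀ hn']
              have := card_pair (n := n)
              nlinarith
          push_cast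
          have hk : (0 : ℝ) ≤ k := Nat.cast_nonneg k
          nlinarith [mul_le_mul_of_nonneg_right h10 hk]
  linarith

/-- the matrix `W` has operator norm larger than `q + 1/q` -/
def BadQ (n : ℕ) (q : ℝ) : Set (Pair n → ℝ) :=
  {g | ¬ Vale.Agent.P150.F.OpLe (WW g) (q + q⁻¹)}

lemma continuous_WW_mulVec (v : Fin n → ℝ) (i : Fin n) :
    Continuous fun g : Pair n → ℝ => ((WW g).mulVec v) i := by
  unfold Matrix.mulVec dotProduct
  exact continuous_finsetSum _ fun j _ => (dom_WW i j).cont.mul continuous_const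

lemma measurable_BadQ (n : ℕ) (q : ℝ) : MeasurableSet (BadQ n q) := by
  have h1 : (BadQ n q)ᶜ = ⋂ v : Fin n → ℝ,
      {g | ∑ i, ((WW g).mulVec v) i ^ 2 ≤ (q + q⁻¹) ^ 2 * ∑ i, v i ^ 2} := by
    ext g
    simp only [BadQ, Set.mem_compl_iff, Set.mem_ofPred_eq, not_not, Set.mem_iInter]
    rfl
  have h2 : IsClosed (BadQ n q)ᶜ := by
    rw [h1]
    refine isClosed_iInter fun v => isClosed_le ?_ continuous_const
    exact continuous_finsetSum _ fun i _ => (continuous_WW_mulVec v i).pow 2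
  exact MeasurableSet.of_compl h2.measurableSet

/-- off the bad event, `U_k (W)` has norm at most `(k+1) q^k` for all `k` -/
theorem cheb_off {q : ℝ} (hq : 1 ≤ q) {g : Pair n → ℝ} (hg : g ∉ BadQ n q) (k : ℕ)
    (v : Fin n → ℝ) :
    ∑ i, ((cheb k (WW g)).mulVec v) i ^ 2 ≤ ((k + 1) * q ^ k) ^ 2 * ∑ i, v i ^ 2 := by
  have h : Vale.Agent.P150.F.OpLe (WW g) (q + q⁻¹) := by
    by_contra hc
    exact hg hc
  exact cheb_norm (WW_symm g) hq h k v

/-- the probability of the bad event -/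
theorem badQ_le (hn : 0 < n) {q : ℝ} (hq : 1 < q) (hq1 : q + q⁻¹ - 2 ≤ 1) :
    (gpi (Pair n)).real (BadQ n q) ≤
      10 * n * Real.exp (-((q + q⁻¹ - 2) ^ 2 / 256 * n)) := by
  obtain ⟨ε, hε⟩ : ∃ ε, ε = q + q⁻¹ - 2 := ⟨_, rfl⟩
  have hq0 : 0 < q := by linarith
  have hε0 : 0 < ε := by
    have h1 : ε = (q - 1) ^ 2 / q := by
      rw [hε]; field_simp; ring
    rw [h1]
    have : 0 < q - 1 := by linarith
    positivity
  rw [← hε] at hq1 ⊢
  have hsub : BadQ n q ⊆ Vale.Agent.P150.Bad n 1 ((2 + ε) * √n) ∪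
      Vale.Agent.P150.Bad n (-1) ((2 + ε) * √n) := by
    intro g hg
    by_contra hc
    rw [Set.mem_union, not_or] at hc
    refine hg ?_
    have := Vale.Agent.P150.F.opLe_of_not_bad hn hε0 hc.1 hc.2
    have e : q + q⁻¹ = 2 + ε := by rw [hε]; ring
    rw [e]
    exact this
  have b1 := Vale.Agent.P150.bad_le hn (σ := 1) (by norm_num) hε0 hq1
  have b2 := Vale.Agent.P150.bad_le hn (σ := -1) (by norm_num) hε0 hq1
  have hdis : Vale.Agent.P150.disorder n = gpi (Pair n) := rfl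
  rw [hdis] at b1 b2
  refine (measureReal_mono hsub).trans ((measureReal_union_le _ _).trans ?_)
  have hn1 : (1 : ℝ) ≤ n := by exact_mod_cast hn
  have e1 : Real.exp (-((ε / 4) ^ 2 / 8 * n)) ≤ Real.exp (-(ε ^ 2 / 256 * n)) := by
    refine Real.exp_le_exp.2 ?_
    nlinarith [mul_nonneg (sq_nonneg ε) (by linarith : (0 : ℝ) ≤ n)]
  have e2 : Real.exp (-(1 / 4 * ((ε / 8) ^ 2 * n))) = Real.exp (-(ε ^ 2 / 256 * n)) := by
    congr 1; ring
  rw [e2] at b1 b2
  obtain ⟨E, hE⟩ : ∃ E, E = Real.exp (-(ε ^ 2 / 256 * n)) := ⟨_, rfl⟩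
  rw [← hE] at b1 b2 e1 ⊢
  have hE0 : 0 < E := by rw [hE]; exact Real.exp_pos _
  nlinarith [mul_nonneg (sub_nonneg.2 hn1) hE0.le]

end sk

end Vale.Agent.P146.R2.H432
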