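import Vale.Agent.P146.H605.Conv

set_option linter.unusedSectionVars false

/-!
# P146: bounded functions of the disorder with bounded derivatives
-/

open MeasureTheory ProbabilityTheory

namespace Vale.Agent.P146.R2.H432

open Vale.Agent.P146.Ub.Cv Vale.Agent.P146.H605

section smo

variable {ι : Type*} [Fintype ι] [DecidableEq ι]

/-- partial derivative -/
noncomputable def pd (i : ι) (f : (ι → ℝ) → ℝ) (g : ι → ℝ) : ℝ := fderiv ℝ f g (Pi.single i 1)

/-- functions with `k` bounded continuous derivatives -/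
def Smo : ℕ → ((ι → ℝ) → ℝ) → Prop
  | 0, f => Continuous f ∧ ∃ B, ∀ g, |f g| ≤ B
  | k + 1, f => (Continuous f ∧ ∃ B, ∀ g, |f g| ≤ B) ∧ Differentiable ℝ f ∧ ∀ i, Smo k (pd i f)

/-- the linear form with coefficients `c` -/
noncomputable def lf (c : ι → ℝ) : (ι → ℝ) →L[ℝ] ℝ :=
  ∑ i, c i • ContinuousLinearMap.proj (R := ℝ) (φ := fun _ : ι => ℝ) i

lemma lf_single (c : ι → ℝ) (i : ι) : lf c (Pi.single i 1) = c i := by
  unfold lf
  simp only [_root_.sum_apply, _root_.smul_apply, ContinuousLinearMap.proj_apply, smul_eq_mul]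
  rw [Finset.sum_eq_single i]
  · simp
  · intro j _ hj
    simp [Pi.single_eq_of_ne hj]
  · intro hi
    exact absurd (Finset.mem_univ i) hi

lemma eq_lf (L : (ι → ℝ) →L[ℝ] ℝ) : L = lf fun i => L (Pi.single i 1) := by
  refine ContinuousLinearMap.coe_injective (LinearMap.pi_ext' fun i => ?_)
  ext
  simp [lf_single]

lemma pd_of_grad {f : (ι → ℝ) → ℝ} {G : ι → (ι → ℝ) → ℝ}
    (h : ∀ g, HasFDerivAt f (lf fun i => G i g) g) (i : ι) : pd i f = G i := by
  funext g
  unfold pd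
  rw [(h g).fderiv, lf_single]

lemma hasFDerivAt_lf {f : (ι → ℝ) → ℝ} (hf : Differentiable ℝ f) (g : ι → ℝ) :
    HasFDerivAt f (lf fun i => pd i f g) g := by
  have h := (hf g).hasFDerivAt
  rw [eq_lf (fderiv ℝ f g)] at h
  exact h

lemma Smo.base : ∀ {k : ℕ} {f : (ι → ℝ) → ℝ}, Smo k f → Continuous f ∧ ∃ B, ∀ g, |f g| ≤ B
  | 0, _, h => h
  | _ + 1, _, h => h.1

lemma Smo.cont {k : ℕ} {f : (ι → ℝ) → ℝ} (h : Smo k f) : Continuous f := h.base.1

lemma Smo.dom {k : ℕ} {f : (ι → ℝ) → ℝ} (h : Smo k f) : Dom f := by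
  obtain ⟨B, hB⟩ := h.base.2
  exact Dom.of_bounded h.cont B hB

lemma Smo.diff {k : ℕ} {f : (ι → ℝ) → ℝ} (h : Smo (k + 1) f) : Differentiable ℝ f := h.2.1

lemma Smo.pd {k : ℕ} {f : (ι → ℝ) → ℝ} (h : Smo (k + 1) f) (i : ι) : Smo k (pd i f) := h.2.2 i

lemma Smo.down : ∀ {k : ℕ} {f : (ι → ℝ) → ℝ}, Smo (k + 1) f → Smo k f
  | 0, _, h => h.1
  | _ + 1, _, h => ⟨h.1, h.2.1, fun i => (h.2.2 i).down⟩

lemma Smo.le {k l : ℕ} (hkl : k ≤ l) {f : (ι → ℝ) → ℝ} (h : Smo l f) : Smo k f := by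
  induction l with
  | zero =>
    obtain rfl : k = 0 := by omega
    exact h
  | succ l ih =>
    rcases Nat.lt_or_ge l k with h1 | h1
    · obtain rfl : k = l + 1 := by omega
      exact h
    · exact ih h1 h.down

lemma Smo.of_grad {k : ℕ} {f : (ι → ℝ) → ℝ} {G : ι → (ι → ℝ) → ℝ} {B : ℝ}
    (hB : ∀ g, |f g| ≤ B) (h : ∀ g, HasFDerivAt f (lf fun i => G i g) g)
    (hG : ∀ i, Smo k (G i)) : Smo (k + 1) f := by
  have hd : Differentiable ℝ f := fun g => (h g).differentiableAt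
  refine ⟨⟨hd.continuous, B, hB⟩, hd, fun i => ?_⟩
  rw [pd_of_grad h i]
  exact hG i

lemma Smo.const (a : ℝ) : ∀ k, Smo k (fun _ : ι → ℝ => a)
  | 0 => ⟨continuous_const, |a|, fun _ => le_rfl⟩
  | k + 1 => by
    refine Smo.of_grad (G := fun _ _ => 0) (B := |a|) (fun _ => le_rfl) (fun g => ?_)
      fun i => Smo.const 0 k
    have : lf (fun _ : ι => (0 : ℝ)) = 0 := by
      unfold lf; simp
    rw [this]
    exact hasFDerivAt_const a g

lemma Smo.add : ∀ {k : ℕ} {f h : (ι → ℝ) → ℝ}, Smo k f → Smo k h → Smo k (fun g => f g + h g)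
  | 0, f, h, hf, hh => by
    obtain ⟨B, hB⟩ := hf.base.2
    obtain ⟨B', hB'⟩ := hh.base.2
    exact ⟨hf.cont.add hh.cont, B + B', fun g => (abs_add_le _ _).trans
      (add_le_add (hB g) (hB' g))⟩
  | k + 1, f, h, hf, hh => by
    obtain ⟨B, hB⟩ := hf.base.2
    obtain ⟨B', hB'⟩ := hh.base.2
    refine Smo.of_grad (G := fun i g => H432.pd i f g + H432.pd i h g) (B := B + B')
      (fun g => (abs_add_le _ _).trans (add_le_add (hB g) (hB' g))) (fun g => ?_)
      fun i => (hf.pd i).add (hh.pd i)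
    refine ((hasFDerivAt_lf hf.diff g).add (hasFDerivAt_lf hh.diff g)).congr_fderiv ?_
    unfold lf
    rw [← Finset.sum_add_distrib]
    exact Finset.sum_congr rfl fun i _ => (add_smul _ _ _).symm

lemma Smo.mul : ∀ {k : ℕ} {f h : (ι → ℝ) → ℝ}, Smo k f → Smo k h → Smo k (fun g => f g * h g)
  | 0, f, h, hf, hh => by
    obtain ⟨B, hB⟩ := hf.base.2
    obtain ⟨B', hB'⟩ := hh.base.2
    refine ⟨hf.cont.mul hh.cont, B * B', fun g => ?_⟩
    rw [abs_mul]
    exact mul_le_mul (hB g) (hB' g) (abs_nonneg _) ((abs_nonneg _).trans (hB g))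
  | k + 1, f, h, hf, hh => by
    obtain ⟨B, hB⟩ := hf.base.2
    obtain ⟨B', hB'⟩ := hh.base.2
    refine Smo.of_grad (G := fun i g => H432.pd i f g * h g + f g * H432.pd i h g) (B := B * B')
      (fun g => ?_) (fun g => ?_)
      fun i => ((hf.pd i).mul hh.down).add (hf.down.mul (hh.pd i))
    · rw [abs_mul]
      exact mul_le_mul (hB g) (hB' g) (abs_nonneg _) ((abs_nonneg _).trans (hB g))
    · refine ((hasFDerivAt_lf hf.diff g).mul (hasFDerivAt_lf hh.diff g)).congr_fderiv ?_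
      unfold lf
      rw [Finset.smul_sum, Finset.smul_sum, ← Finset.sum_add_distrib]
      refine Finset.sum_congr rfl fun i _ => ?_
      rw [smul_smul, smul_smul, ← add_smul]
      congr 1
      ring

lemma Smo.neg {k : ℕ} {f : (ι → ℝ) → ℝ} (hf : Smo k f) : Smo k (fun g => -f g) := by
  have h := (Smo.const (-1) k).mul hf
  refine (congrArg (Smo k) ?_).mp h
  funext g; ring

lemma Smo.sub {k : ℕ} {f h : (ι → ℝ) → ℝ} (hf : Smo k f) (hh : Smo k h) :
    Smo k (fun g => f g - h g) := by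
  have h := hf.add hh.neg
  refine (congrArg (Smo k) ?_).mp h
  funext g; ring

lemma Smo.sum {κ : Type*} {k : ℕ} (s : Finset κ) {f : κ → (ι → ℝ) → ℝ}
    (hf : ∀ j ∈ s, Smo k (f j)) : Smo k (fun g => ∑ j ∈ s, f j g) := by
  classical
  induction s using Finset.induction_on with
  | empty => simpa using Smo.const (ι := ι) 0 k
  | insert a s ha ih =>
    simp only [Finset.sum_insert ha]
    exact (hf a (Finset.mem_insert_self _ _)).add
      (ih fun k hk => hf k (Finset.mem_insert_of_mem hk))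

lemma Smo.const_mul {k : ℕ} {f : (ι → ℝ) → ℝ} (a : ℝ) (hf : Smo k f) :
    Smo k (fun g => a * f g) := (Smo.const a k).mul hf

/-- the derivative along a coordinate -/
lemma hasDerivAt_upd {f : (ι → ℝ) → ℝ} (hf : Differentiable ℝ f) (i : ι) (g : ι → ℝ) (t : ℝ) :
    HasDerivAt (fun t => f (Function.update g i t)) (pd i f (Function.update g i t)) t := by
  have h1 := (hf (Function.update g i t)).hasFDerivAt.comp_hasDerivAt t (hasDerivAt_update g i t)
  exact h1

lemma Smo.reg {f : (ι → ℝ) → ℝ} (h : Smo 2 f) :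
    ∃ B, Reg f (fun i => H432.pd i f) (fun i => H432.pd i (H432.pd i f)) B := by
  have h1 : ∀ i, ∃ B, ∀ g, |H432.pd i f g| ≤ B := fun i => (h.pd i).base.2
  choose B hB using h1
  have hB0 : ∀ i, 0 ≤ B i := fun i => (abs_nonneg _).trans (hB i 0)
  refine ⟨∑ i, B i, ?_⟩
  exact {
    F_dom := h.dom
    G_dom := fun i => (h.pd i).dom
    H_dom := fun i => ((h.pd i).pd i).dom
    G_bd := fun i g => (hB i g).trans
      (Finset.single_le_sum (f := B) (fun i _ => hB0 i) (Finset.mem_univ i))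
    F_diff := fun g => hasFDerivAt_lf h.diff g
    G_diff := fun i g t => hasDerivAt_upd (h.pd i).diff i g t }

end smo

section gibbs

variable {ι S : Type*} [Fintype ι] [Fintype S] [Nonempty S] [DecidableEq ι]
  (a : S → ι → ℝ) (c : S → ℝ)

/-- Gibbs averages have bounded derivatives of all orders. -/
theorem smo_gav : ∀ (k : ℕ) (f : S → ℝ), Smo k (fun g => gav a c f g) := by
  intro k
  induction k with
  | zero =>
    intro f
    obtain ⟨A, hA⟩ : ∃ A, ∀ s, |f s| ≤ A := ⟨∑ s, |f s|, fun s =>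
      Finset.single_le_sum (f := fun s => |f s|) (fun i _ => abs_nonneg _) (Finset.mem_univ s)⟩
    exact ⟨(gav_dom a c f).cont, A, fun g => abs_gav_le a c hA g⟩
  | succ k ih =>
    intro f
    obtain ⟨A, hA⟩ : ∃ A, ∀ s, |f s| ≤ A := ⟨∑ s, |f s|, fun s =>
      Finset.single_le_sum (f := fun s => |f s|) (fun i _ => abs_nonneg _) (Finset.mem_univ s)⟩
    exact Smo.of_grad (G := gG a c f) (fun g => abs_gav_le a c hA g)
      (fun g => gav_fderiv a c f g) fun i => (ih _).sub ((ih _).mul (ih _))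

end gibbs

end Vale.Agent.P146.R2.H432
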