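import Vale.Agent.P146.R2.H432.Smo
import Vale.Agent.P146.R2.Def
import Vale.Agent.P146.R2.H749.Herm

/-!
# P146: the high degree part of the covariance of two correlated copies
-/

open MeasureTheory ProbabilityTheory

namespace Vale.Agent.P146.R2.H432

open Vale.Agent.P146.Ub.Cv Vale.Agent.P146.H605 Vale.Agent.P146.H453

section qq

variable {ι : Type*} [Fintype ι] [DecidableEq ι]

omit [DecidableEq ι] in
lemma QQ_zero (f : (ι → ℝ) → ℝ) : QQ f 0 = (∫ y, f y ∂(gpi ι)) ^ 2 := by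
  unfold QQ
  have e : ∀ z y : ι → ℝ, mix (Real.sqrt 0) (Real.sqrt (1 - 0)) z y = y := by
    intro z y
    funext i
    simp [mix]
  simp_rw [e]
  simp

omit [DecidableEq ι] in
lemma QQ_one' (f : (ι → ℝ) → ℝ) : QQ f 1 = ∫ y, f y ^ 2 ∂(gpi ι) := by
  unfold QQ
  have e : ∀ z y : ι → ℝ, mix (Real.sqrt 1) (Real.sqrt (1 - 1)) z y = z := by
    intro z y
    funext i
    simp [mix]
  simp_rw [e]
  simp

lemma QQ_cont {f : (ι → ℝ) → ℝ} (hf : Smo 2 f) : ContinuousOn (QQ f) (Set.Icc 0 1) := by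
  obtain ⟨B, h⟩ := hf.reg
  have h1 : Continuous (KK f) := by
    rw [continuous_iff_continuousAt]
    exact fun θ => (hasDerivAt_KK h θ).continuousAt
  have h2 : Continuous fun t => KK f (Real.arccos (Real.sqrt t)) :=
    h1.comp (Real.continuous_arccos.comp Real.continuous_sqrt)
  exact h2.continuousOn.congr fun t ht => QQ_KK h.F_dom ht.1 ht.2

lemma hasDerivAt_QQ {f : (ι → ℝ) → ℝ} (hf : Smo 2 f) {t : ℝ} (h0 : 0 < t) (h1 : t < 1) :
    HasDerivAt (QQ f) (∑ i, QQ (pd i f) t) t := by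
  obtain ⟨B, h⟩ := hf.reg
  have hs0 : 0 < Real.sqrt t := Real.sqrt_pos.2 h0
  have hs1 : Real.sqrt t < 1 := by
    rw [← Real.sqrt_one]
    exact Real.sqrt_lt_sqrt h0.le h1
  have d1 := hasDerivAt_KK h (Real.arccos (Real.sqrt t))
  have d2 : HasDerivAt (fun t => Real.arccos (Real.sqrt t))
      (-(1 / Real.sqrt (1 - Real.sqrt t ^ 2)) * (1 / (2 * Real.sqrt t))) t :=
    (Real.hasDerivAt_arccos (by linarith) hs1.ne).comp t (Real.hasDerivAt_sqrt h0.ne')
  have d3 := d1.comp t d2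
  have e1 : ∀ i, QQ (pd i f) t = QQ (pd i f) (Real.cos (Real.arccos (Real.sqrt t)) ^ 2) := by
    intro i
    rw [Real.cos_arccos (by linarith) hs1.le, Real.sq_sqrt h0.le]
  have e2 : phi (fun i => pd i f) (Real.arccos (Real.sqrt t)) = ∑ i, QQ (pd i f) t := by
    rw [phi_eq h.G_dom]
    refine Finset.sum_congr rfl fun i _ => ?_
    unfold QQ
    rw [Real.cos_arccos (by linarith) hs1.le, Real.sin_arccos, Real.sq_sqrt h0.le]
  have e3 : -(2 * Real.sin (Real.arccos (Real.sqrt t)) * Real.cos (Real.arccos (Real.sqrt t))) *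
      phi (fun i => pd i f) (Real.arccos (Real.sqrt t)) *
      (-(1 / Real.sqrt (1 - Real.sqrt t ^ 2)) * (1 / (2 * Real.sqrt t))) =
      ∑ i, QQ (pd i f) t := by
    rw [e2, Real.cos_arccos (by linarith) hs1.le, Real.sin_arccos]
    have hp : 0 < Real.sqrt (1 - Real.sqrt t ^ 2) := by
      apply Real.sqrt_pos.2
      rw [Real.sq_sqrt h0.le]
      linarith
    field_simp
  rw [e3] at d3
  refine d3.congr_of_eventuallyEq ?_
  filter_upwards [Ioo_mem_nhds h0 h1] with u hu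
  exact QQ_KK h.F_dom hu.1.le hu.2.le

end qq

section tail

variable {n : ℕ}

/-- the part of `QQ f t` of degree at least `k`, computed with the coefficients `c` -/
noncomputable def Ph (c : ((Pair n → ℝ) → ℝ) → MI n → ℝ) (k : ℕ) (f : (Pair n → ℝ) → ℝ)
    (t : ℝ) : ℝ :=
  match k with
  | 0 => QQ f t
  | k + 1 => QQ f t - ∑ α ∈ ML n k, H453.wt t α * c f α ^ 2

lemma wtc (α : MI n) : Continuous fun t : ℝ => H453.wt t α := by
  unfold H453.wt
  fun_prop

lemma hasDerivAt_sum (k : ℕ) (H : MI n → ℝ) {t : ℝ} (h0 : 0 < t) :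
    HasDerivAt (fun t => ∑ α ∈ ML n (k + 1), H453.wt t α * H α)
      (∑ e, ∑ α ∈ ML n k, H453.wt t α * H (α + un e)) t := by
  have d1 : ∀ α ∈ ML n (k + 1), HasDerivAt (fun t => H453.wt t α * H α)
      ((H453.tot α : ℝ) * t ^ (H453.tot α - 1) / (∏ e, ((α e).factorial : ℝ)) * H α) t := by
    intro α _
    unfold H453.wt
    exact ((hasDerivAt_pow (H453.tot α) t).div_const _).mul_const _
  have d2 := HasDerivAt.fun_sum d1
  refine d2.congr_deriv ?_
  have h1 : t * ∑ α ∈ ML n (k + 1),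
      (H453.tot α : ℝ) * t ^ (H453.tot α - 1) / (∏ e, ((α e).factorial : ℝ)) * H α =
      t * ∑ e, ∑ α ∈ ML n k, H453.wt t α * H (α + un e) := by
    rw [Finset.mul_sum, Finset.mul_sum]
    have h2 : ∀ e, t * ∑ α ∈ ML n k, H453.wt t α * H (α + un e) =
        ∑ β ∈ ML n (k + 1), H453.wt t β * β e * H β := fun e => cv t k e H
    rw [Finset.sum_congr rfl fun e _ => h2 e, Finset.sum_comm]
    refine Finset.sum_congr rfl fun α _ => ?_
    have h3 : ∑ e, H453.wt t α * (α e : ℝ) * H α = H453.wt t α * (H453.tot α : ℝ) * H α := by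
      rw [← Finset.sum_mul, ← Finset.mul_sum]
      unfold H453.tot
      push_cast
      ring
    rw [h3]
    unfold H453.wt
    rcases Nat.eq_zero_or_pos (H453.tot α) with h4 | h4
    · rw [h4]
      simp
    · obtain ⟨m, hm⟩ : ∃ m, H453.tot α = m + 1 := ⟨H453.tot α - 1, by omega⟩
      rw [hm, Nat.add_sub_cancel, pow_succ]
      ring
  exact mul_left_cancel₀ h0.ne' h1

lemma ML_zero : ML n 0 = {0} := by
  ext α
  rw [mem_ML, Finset.mem_singleton]
  constructor
  · intro h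
    funext e
    have : α e ≤ H453.tot α := Finset.single_le_sum (f := fun e => α e) (fun _ _ => Nat.zero_le _)
      (Finset.mem_univ e)
    simp only [Pi.zero_apply]
    omega
  · rintro rfl
    simp [H453.tot]

lemma wt_zero_right (t : ℝ) : H453.wt t (0 : MI n) = 1 := by
  unfold H453.wt
  simp [H453.tot]

lemma wt_zero_left {α : MI n} (h : α ≠ 0) : H453.wt 0 α = 0 := by
  unfold H453.wt
  have h1 : H453.tot α ≠ 0 := by
    intro h1
    apply h
    have : α ∈ ML n 0 := mem_ML.2 h1.le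
    rw [ML_zero] at this
    exact Finset.mem_singleton.1 this
  rw [zero_pow h1, zero_div]

variable {c : ((Pair n → ℝ) → ℝ) → MI n → ℝ}

lemma Ph_deriv (h1 : ∀ f, Smo 1 f → ∀ e α, c f (α + un e) = c (pd e f) α) (k : ℕ)
    {f : (Pair n → ℝ) → ℝ} (hf : Smo 2 f) {t : ℝ} (ht0 : 0 < t) (ht1 : t < 1) :
    HasDerivAt (Ph c (k + 1) f) (∑ e, Ph c k (pd e f) t) t := by
  have d1 := hasDerivAt_QQ hf ht0 ht1
  rcases k with _ | k
  · have e1 : Ph c 1 f = fun t => QQ f t - c f 0 ^ 2 := by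
      funext u
      show QQ f u - ∑ α ∈ ML n 0, H453.wt u α * c f α ^ 2 = _
      rw [ML_zero, Finset.sum_singleton, wt_zero_right, one_mul]
    rw [e1]
    exact d1.sub_const _
  · have d2 := hasDerivAt_sum k (fun α => c f α ^ 2) ht0
    have d3 := d1.sub d2
    refine d3.congr_deriv ?_
    rw [← Finset.sum_sub_distrib]
    refine Finset.sum_congr rfl fun e _ => ?_
    show _ = QQ (pd e f) t - ∑ α ∈ ML n k, H453.wt t α * c (pd e f) α ^ 2
    congr 1
    refine Finset.sum_congr rfl fun α _ => ?_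
    rw [h1 f hf.down e α]

lemma Ph_cont (k : ℕ) {f : (Pair n → ℝ) → ℝ} (hf : Smo 2 f) :
    ContinuousOn (Ph c k f) (Set.Icc 0 1) := by
  rcases k with _ | k
  · exact QQ_cont hf
  · have : Continuous fun t : ℝ => ∑ α ∈ ML n k, H453.wt t α * c f α ^ 2 :=
      continuous_finsetSum _ fun α _ => (wtc α).mul continuous_const
    exact (QQ_cont hf).sub this.continuousOn

lemma Ph_zero (h0 : ∀ f, Smo 0 f → c f 0 = ∫ y, f y ∂(gpi (Pair n))) (k : ℕ)
    {f : (Pair n → ℝ) → ℝ} (hf : Smo 0 f) : Ph c (k + 1) f 0 = 0 := by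
  show QQ f 0 - ∑ α ∈ ML n k, H453.wt 0 α * c f α ^ 2 = 0
  rw [Finset.sum_eq_single (0 : MI n), wt_zero_right, QQ_zero, h0 f hf]
  · ring
  · intro α _ hα
    rw [wt_zero_left hα]
    ring
  · intro h
    exfalso
    apply h
    rw [mem_ML]
    simp [H453.tot]

/-- the degree `≥ k` part divided by `t ^ k` is nondecreasing -/
theorem Ph_mono (h0 : ∀ f, Smo 0 f → c f 0 = ∫ y, f y ∂(gpi (Pair n)))
    (h1 : ∀ f, Smo 1 f → ∀ e α, c f (α + un e) = c (pd e f) α) :
    ∀ (k : ℕ) (f : (Pair n → ℝ) → ℝ), Smo (k + 2) f → ∀ s t : ℝ, 0 ≤ s → s ≤ t → t ≤ 1 →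
      Ph c k f s * t ^ k ≤ Ph c k f t * s ^ k := by
  intro k
  induction k with
  | zero =>
    intro f hf s t hs hst ht
    obtain ⟨B, h⟩ := hf.reg
    show QQ f s * t ^ 0 ≤ QQ f t * s ^ 0
    simpa using QQ_mono h hs hst ht
  | succ k ih =>
    intro f hf s t hs hst ht
    have hf2 : Smo 2 f := hf.le (by omega)
    have hf0 : Smo 0 f := hf.le (by omega)
    rcases (hs.trans hst).eq_or_lt with ht0 | ht0
    · have hs0 : s = 0 := le_antisymm (hst.trans ht0.symm.le) hs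
      rw [← ht0, hs0]
    obtain ⟨r, hr⟩ : ∃ r, r = s / t := ⟨_, rfl⟩
    have hr0 : 0 ≤ r := by rw [hr]; positivity
    have hr1 : r ≤ 1 := by rw [hr, div_le_one ht0]; exact hst
    have hs' : s = r * t := by rw [hr]; field_simp
    have hD : ∀ v ∈ Set.Icc (0 : ℝ) t, r * v ∈ Set.Icc (0 : ℝ) 1 := fun v hv =>
      ⟨mul_nonneg hr0 hv.1, by nlinarith [hv.1, hv.2]⟩
    have hD' : ∀ v ∈ Set.Icc (0 : ℝ) t, v ∈ Set.Icc (0 : ℝ) 1 := fun v hv => ⟨hv.1, hv.2.trans ht⟩
    have mono : MonotoneOn (fun v => r ^ (k + 1) * Ph c (k + 1) f v - Ph c (k + 1) f (r * v))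
        (Set.Icc 0 t) := by
      rcases hr0.eq_or_lt with hr00 | hr00
      · have e : (fun v => r ^ (k + 1) * Ph c (k + 1) f v - Ph c (k + 1) f (r * v)) =
            fun _ => 0 := by
          funext v
          rw [← hr00, zero_pow (by omega), zero_mul, zero_mul, Ph_zero h0 k hf0, sub_zero]
        rw [e]
        exact fun _ _ _ _ _ => le_rfl
      have hder : ∀ v ∈ Set.Ioo (0 : ℝ) t, HasDerivAt
          (fun v => r ^ (k + 1) * Ph c (k + 1) f v - Ph c (k + 1) f (r * v))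
          (r ^ (k + 1) * ∑ e, Ph c k (pd e f) v - (∑ e, Ph c k (pd e f) (r * v)) * r) v := by
        intro v hv
        have hv1 : v < 1 := lt_of_lt_of_le hv.2 ht
        have hrv0 : 0 < r * v := mul_pos hr00 hv.1
        have hrv1 : r * v < 1 := by nlinarith [hv.1]
        have d1 := (Ph_deriv h1 k hf2 hv.1 hv1).const_mul (r ^ (k + 1))
        have d2 := (Ph_deriv h1 k hf2 hrv0 hrv1).comp v
          (by simpa using (hasDerivAt_id v).const_mul r : HasDerivAt (fun v => r * v) r v)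
        exact d1.sub d2
      refine monotoneOn_of_deriv_nonneg (convex_Icc _ _) ?_ ?_ ?_
      · refine ContinuousOn.sub (continuousOn_const.mul ((Ph_cont (k + 1) hf2).mono
          fun v hv => hD' v hv)) ?_
        exact (Ph_cont (k + 1) hf2).comp (by fun_prop) fun v hv => hD v hv
      · rw [interior_Icc]
        exact fun v hv => (hder v hv).differentiableAt.differentiableWithinAt
      · rw [interior_Icc]
        intro v hv
        rw [(hder v hv).deriv]
        have key : ∀ e, Ph c k (pd e f) (r * v) * r ≤ r ^ (k + 1) * Ph c k (pd e f) v := by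
          intro e
          have h2 := ih (pd e f) (hf.pd e) (r * v) v (by nlinarith [hv.1]) (by nlinarith [hv.1])
            (hv.2.le.trans ht)
          have hvk : 0 < v ^ k := pow_pos hv.1 k
          have h3 : Ph c k (pd e f) (r * v) ≤ Ph c k (pd e f) v * r ^ k := by
            rw [mul_pow] at h2
            have h4 : Ph c k (pd e f) (r * v) * v ^ k ≤ (Ph c k (pd e f) v * r ^ k) * v ^ k := by
              linarith
            exact le_of_mul_le_mul_right h4 hvk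
          calc Ph c k (pd e f) (r * v) * r ≤ (Ph c k (pd e f) v * r ^ k) * r :=
                mul_le_mul_of_nonneg_right h3 hr0
            _ = r ^ (k + 1) * Ph c k (pd e f) v := by rw [pow_succ]; ring
        rw [Finset.mul_sum, Finset.sum_mul, ← Finset.sum_sub_distrib]
        exact Finset.sum_nonneg fun e _ => sub_nonneg.2 (key e)
    have h3 := mono (Set.left_mem_Icc.2 ht0.le) (Set.right_mem_Icc.2 ht0.le) ht0.le
    simp only [mul_zero] at h3
    rw [Ph_zero h0 k hf0, mul_zero, sub_zero, ← hs'] at h3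
    have h4 : Ph c (k + 1) f s ≤ r ^ (k + 1) * Ph c (k + 1) f t := by linarith
    have h5 : 0 < t ^ (k + 1) := pow_pos ht0 _
    calc Ph c (k + 1) f s * t ^ (k + 1) ≤ (r ^ (k + 1) * Ph c (k + 1) f t) * t ^ (k + 1) :=
          mul_le_mul_of_nonneg_right h4 h5.le
      _ = Ph c (k + 1) f t * s ^ (k + 1) := by rw [hs', mul_pow]; ring

/-- **Tail bound.**  The part of degree `> L` of `QQ f t` is at most `t ^ (L+1) E f²`. -/
theorem tail_gen (h0 : ∀ f, Smo 0 f → c f 0 = ∫ y, f y ∂(gpi (Pair n)))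
    (h1 : ∀ f, Smo 1 f → ∀ e α, c f (α + un e) = c (pd e f) α) (L : ℕ)
    {f : (Pair n → ℝ) → ℝ} (hf : Smo (L + 3) f) {t : ℝ} (ht0 : 0 ≤ t) (ht1 : t ≤ 1) :
    QQ f t ≤ ∑ α ∈ ML n L, H453.wt t α * c f α ^ 2 + t ^ (L + 1) * ∫ y, f y ^ 2 ∂(gpi (Pair n)) := by
  have h2 := Ph_mono h0 h1 (L + 1) f hf t 1 ht0 ht1 le_rfl
  rw [one_pow, mul_one] at h2
  have h3 : Ph c (L + 1) f 1 ≤ ∫ y, f y ^ 2 ∂(gpi (Pair n)) := by
    rw [← QQ_one']
    show QQ f 1 - ∑ α ∈ ML n L, H453.wt 1 α * c f α ^ 2 ≤ QQ f 1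
    have : 0 ≤ ∑ α ∈ ML n L, H453.wt 1 α * c f α ^ 2 :=
      Finset.sum_nonneg fun α _ => mul_nonneg (H453.wt_nonneg zero_le_one α) (sq_nonneg _)
    linarith
  have h4 : Ph c (L + 1) f t ≤ t ^ (L + 1) * ∫ y, f y ^ 2 ∂(gpi (Pair n)) := by
    refine h2.trans ?_
    rw [mul_comm]
    exact mul_le_mul_of_nonneg_left h3 (pow_nonneg ht0 _)
  have h5 : Ph c (L + 1) f t = QQ f t - ∑ α ∈ ML n L, H453.wt t α * c f α ^ 2 := rfl
  linarith

/-- the coefficients of a derivative -/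
lemma co_pd {f : (Pair n → ℝ) → ℝ} (hf : Smo 1 f) (e : Pair n) (α : MI n) :
    R2.co f (α + un e) = R2.co (pd e f) α :=
  H749.co_ibp hf.dom (hf.pd e).dom e (fun g t => hasDerivAt_upd hf.diff e g t) α

lemma co_zero (f : (Pair n → ℝ) → ℝ) : R2.co f 0 = ∫ y, f y ∂(gpi (Pair n)) := by
  unfold R2.co R2.heM
  refine integral_congr_ae (Filter.Eventually.of_forall fun y => ?_)
  simp

/-- **Tail bound** for the Hermite coefficients. -/
theorem tail (L : ℕ) {f : (Pair n → ℝ) → ℝ} (hf : Smo (L + 3) f) {t : ℝ} (ht0 : 0 ≤ t)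
    (ht1 : t ≤ 1) :
    QQ f t ≤ ∑ α ∈ ML n L, H453.wt t α * R2.co f α ^ 2 +
      t ^ (L + 1) * ∫ y, f y ^ 2 ∂(gpi (Pair n)) :=
  tail_gen (c := R2.co) (fun f _ => co_zero f) (fun _ hf e α => co_pd hf e α) L hf ht0 ht1

end tail

end Vale.Agent.P146.R2.H432
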