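import Vale.Agent.P146.R2.H533.TrE

/-!
# P146: row E with constants that are good near the edge
-/

open Matrix
open scoped Matrix.Norms.L2Operator

namespace Vale.Agent.P146.R2.H432.Tr

open Vale.Agent.P146.R2.H432 (cheb cheb_norm)
open Vale.Agent.P146.Sk (Wm Ix)
open Vale.Agent.P146.R2.H729.Tr
open Vale.Agent.P146.R2.H533

variable {N : ℕ}

/-- the operator norm of `U_k (A)` -/
theorem norm_cheb_q {A : Matrix (Fin N) (Fin N) ℝ} (hA : A.IsSymm) {q : ℝ} (hq : 1 ≤ q)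
    (h : ‖A‖ ≤ q + q⁻¹) (k : ℕ) : ‖cheb k A‖ ≤ (k + 1) * q ^ k := by
  have hq0 : 0 < q := by linarith
  have h1 := cheb_norm (A := A) (fun i j => hA.apply j i) hq (fun v => (mulVec_sq A v).trans
    (mul_le_mul_of_nonneg_right (pow_le_pow_left₀ (norm_nonneg _) h 2)
      (Finset.sum_nonneg fun _ _ => sq_nonneg _))) k
  rw [Matrix.l2_opNorm_def]
  refine ContinuousLinearMap.opNorm_le_bound _ (by positivity) fun v => ?_
  have h2 := h1 v.ofLp
  have h3 : ‖v‖ ^ 2 = ∑ i, v.ofLp i ^ 2 := by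
    rw [EuclideanSpace.norm_sq_eq]
    simp only [Real.norm_eq_abs, sq_abs]
  have h4 : ‖((toEuclideanLin (𝕜 := ℝ) (m := Fin N) (n := Fin N)).trans
      LinearMap.toContinuousLinearMap) (cheb k A) v‖ ^ 2 = ∑ i, (cheb k A *ᵥ v.ofLp) i ^ 2 := by
    rw [EuclideanSpace.norm_sq_eq]
    simp only [Real.norm_eq_abs, sq_abs]
    rfl
  refine le_of_sq_le_sq ?_ (by positivity)
  rw [h4, mul_pow, h3]
  exact h2

/-- the difference of `U_k (A)` and `U_k (B)` -/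
noncomputable def Dk (A B : Matrix (Fin N) (Fin N) ℝ) (k : ℕ) : Matrix (Fin N) (Fin N) ℝ :=
  ∑ a ∈ Finset.range (k + 1), cheb a A * (A - B) * cheb (k - a) B

theorem Dk_zero (A B : Matrix (Fin N) (Fin N) ℝ) : Dk A B 0 = A - B := by
  unfold Dk
  simp [cheb]

theorem Dk_one (A B : Matrix (Fin N) (Fin N) ℝ) : Dk A B 1 = A * (A - B) + (A - B) * B := by
  unfold Dk
  rw [Finset.sum_range_succ, Finset.sum_range_succ, Finset.sum_range_zero]
  simp only [cheb, Nat.sub_zero, Nat.sub_self, Matrix.one_mul, Matrix.mul_one, zero_add]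
  abel

theorem Dk_succ (A B : Matrix (Fin N) (Fin N) ℝ) (k : ℕ) :
    Dk A B (k + 2) = A * Dk A B (k + 1) + (A - B) * cheb (k + 2) B - Dk A B k := by
  have h1 : Dk A B (k + 2) = (A - B) * cheb (k + 2) B + A * (A - B) * cheb (k + 1) B +
      ∑ a ∈ Finset.range (k + 1), cheb (a + 2) A * (A - B) * cheb (k - a) B := by
    unfold Dk
    rw [Finset.sum_range_succ', Finset.sum_range_succ']
    have e : ∀ a ∈ Finset.range (k + 1),
        cheb (a + 1 + 1) A * (A - B) * cheb (k + 2 - (a + 1 + 1)) B =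
          cheb (a + 2) A * (A - B) * cheb (k - a) B := by
      intro a _
      have e0 : k + 2 - (a + 1 + 1) = k - a := by omega
      rw [e0]
    rw [Finset.sum_congr rfl e]
    simp only [cheb, Nat.sub_zero, Matrix.one_mul, zero_add]
    have e2 : k + 2 - 1 = k + 1 := rfl
    rw [e2]
    abel
  have h2 : Dk A B (k + 1) = (A - B) * cheb (k + 1) B +
      ∑ a ∈ Finset.range (k + 1), cheb (a + 1) A * (A - B) * cheb (k - a) B := by
    unfold Dk
    rw [Finset.sum_range_succ']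
    have e : ∀ a ∈ Finset.range (k + 1),
        cheb (a + 1) A * (A - B) * cheb (k + 1 - (a + 1)) B =
          cheb (a + 1) A * (A - B) * cheb (k - a) B := by
      intro a _
      congr 2
      omega
    rw [Finset.sum_congr rfl e]
    simp only [cheb, Nat.sub_zero, Matrix.one_mul]
    abel
  have h3 : ∑ a ∈ Finset.range (k + 1), cheb (a + 2) A * (A - B) * cheb (k - a) B =
      A * (∑ a ∈ Finset.range (k + 1), cheb (a + 1) A * (A - B) * cheb (k - a) B) -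
        Dk A B k := by
    unfold Dk
    rw [Finset.mul_sum, ← Finset.sum_sub_distrib]
    refine Finset.sum_congr rfl fun a _ => ?_
    show (A * cheb (a + 1) A - cheb a A) * (A - B) * cheb (k - a) B = _
    rw [Matrix.sub_mul, Matrix.sub_mul]
    simp only [Matrix.mul_assoc]
  rw [h1, h3, h2, Matrix.mul_add]
  simp only [Matrix.mul_assoc]
  abel

theorem cheb_sub (A B : Matrix (Fin N) (Fin N) ℝ) (k : ℕ) :
    cheb (k + 1) A - cheb (k + 1) B = Dk A B k ∧ cheb (k + 2) A - cheb (k + 2) B = Dk A B (k + 1) := by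
  induction k with
  | zero =>
    refine ⟨by rw [Dk_zero]; simp [cheb], ?_⟩
    rw [Dk_one]
    show A * A - 1 - (B * B - 1) = _
    rw [Matrix.mul_sub, Matrix.sub_mul]
    abel
  | succ k ih =>
    refine ⟨ih.2, ?_⟩
    rw [Dk_succ, ← ih.1, ← ih.2]
    show A * cheb (k + 2) A - cheb (k + 1) A - (B * cheb (k + 2) B - cheb (k + 1) B) = _
    rw [Matrix.mul_sub, Matrix.sub_mul]
    abel

/-- the combinatorial constant -/
theorem sum_le (k : ℕ) : ∑ a ∈ Finset.range (k + 1), ((a : ℝ) + 1) * ((k - a : ℕ) + 1) ≤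
    ((k : ℝ) + 1) ^ 3 := by
  have h1 : ∀ a ∈ Finset.range (k + 1), ((a : ℝ) + 1) * ((k - a : ℕ) + 1) ≤ ((k : ℝ) + 1) ^ 2 := by
    intro a ha
    have hak : a ≤ k := Nat.lt_succ_iff.1 (Finset.mem_range.1 ha)
    have e1 : (a : ℝ) ≤ k := by exact_mod_cast hak
    have e2 : ((k - a : ℕ) : ℝ) ≤ k := by exact_mod_cast Nat.sub_le k a
    have e3 : (0 : ℝ) ≤ a := by positivity
    have e4 : (0 : ℝ) ≤ ((k - a : ℕ) : ℝ) := by positivity
    rw [pow_two]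
    exact mul_le_mul (by linarith) (by linarith) (by linarith) (by linarith)
  refine (Finset.sum_le_card_nsmul _ _ _ h1).trans (le_of_eq ?_)
  rw [Finset.card_range, nsmul_eq_mul]
  push_cast
  ring

/-- the sum of the products of the norms -/
theorem prod_le {A B : Matrix (Fin N) (Fin N) ℝ} (hA : A.IsSymm) (hB : B.IsSymm) {q : ℝ}
    (hq : 1 ≤ q) (h : ‖A‖ ≤ q + q⁻¹) (h' : ‖B‖ ≤ q + q⁻¹) (k : ℕ) :
    ∑ a ∈ Finset.range (k + 1), ‖cheb a A‖ * ‖cheb (k - a) B‖ ≤ ((k : ℝ) + 1) ^ 3 * q ^ k := by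
  have hq0 : 0 < q := by linarith
  calc ∑ a ∈ Finset.range (k + 1), ‖cheb a A‖ * ‖cheb (k - a) B‖
      ≤ ∑ a ∈ Finset.range (k + 1), (((a : ℝ) + 1) * ((k - a : ℕ) + 1)) * q ^ k := by
        refine Finset.sum_le_sum fun a ha => ?_
        have hak : a ≤ k := Nat.lt_succ_iff.1 (Finset.mem_range.1 ha)
        have e1 := norm_cheb_q hA hq h a
        have e2 := norm_cheb_q hB hq h' (k - a)
        calc ‖cheb a A‖ * ‖cheb (k - a) B‖ ≤ ((a + 1) * q ^ a) * (((k - a : ℕ) + 1) * q ^ (k - a)) :=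
              mul_le_mul e1 e2 (norm_nonneg _) (by positivity)
          _ = ((a + 1) * ((k - a : ℕ) + 1)) * (q ^ a * q ^ (k - a)) := by ring
          _ = _ := by rw [← pow_add, Nat.add_sub_cancel' hak]
    _ = (∑ a ∈ Finset.range (k + 1), ((a : ℝ) + 1) * ((k - a : ℕ) + 1)) * q ^ k := by
        rw [Finset.sum_mul]
    _ ≤ _ := mul_le_mul_of_nonneg_right (sum_le k) (by positivity)

theorem hs_YY_q (L : ℕ) (c : ℕ → ℝ) {A : Matrix (Fin N) (Fin N) ℝ} (hA : A.IsSymm) {q : ℝ}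
    (hq : 1 ≤ q) (h : ‖A‖ ≤ q + q⁻¹) (X : Matrix (Fin N) (Fin N) ℝ) :
    hs (YY L c A X) ≤ (∑ k ∈ Finset.range L, |c k| * (((k : ℝ) + 1) ^ 3 * q ^ k)) * hs X := by
  have h0 := hs_nonneg X
  unfold YY
  rw [hs_smul, abs_of_pos (by norm_num : (0 : ℝ) < 1 / 2)]
  have h1 : hs (∑ k ∈ Finset.range L, c k • ∑ a ∈ Finset.range (k + 1),
      (cheb a A * X * cheb (k - a) A + cheb a A * Xᵀ * cheb (k - a) A)) ≤
      ∑ k ∈ Finset.range L, |c k| * ((((k : ℝ) + 1) ^ 3 * q ^ k) * (2 * hs X)) := by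
    refine (hs_sum _ _).trans (Finset.sum_le_sum fun k _ => ?_)
    rw [hs_smul]
    refine mul_le_mul_of_nonneg_left ?_ (abs_nonneg _)
    refine (hs_sum _ _).trans ?_
    have h2 : ∀ a ∈ Finset.range (k + 1),
        hs (cheb a A * X * cheb (k - a) A + cheb a A * Xᵀ * cheb (k - a) A) ≤
          (‖cheb a A‖ * ‖cheb (k - a) A‖) * (2 * hs X) := by
      intro a _
      have key : ∀ Z : Matrix (Fin N) (Fin N) ℝ, hs Z = hs X →
          hs (cheb a A * Z * cheb (k - a) A) ≤ (‖cheb a A‖ * ‖cheb (k - a) A‖) * hs X := by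
        intro Z hZ
        have e1 := hs_mul_right (cheb a A * Z) (cheb (k - a) A)
        have e2 := mul_le_mul_of_nonneg_right (hs_mul_left (cheb a A) Z)
          (norm_nonneg (cheb (k - a) A))
        rw [hZ] at e2
        calc _ ≤ _ := e1
          _ ≤ _ := e2
          _ = _ := by ring
      have e3 := hs_add (cheb a A * X * cheb (k - a) A) (cheb a A * Xᵀ * cheb (k - a) A)
      linarith [key X rfl, key Xᵀ (hs_transpose X)]
    refine (Finset.sum_le_sum h2).trans ?_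
    rw [← Finset.sum_mul]
    exact mul_le_mul_of_nonneg_right (prod_le hA hA hq h h k) (by positivity)
  have h2 : ∑ k ∈ Finset.range L, |c k| * ((((k : ℝ) + 1) ^ 3 * q ^ k) * (2 * hs X)) =
      2 * ((∑ k ∈ Finset.range L, |c k| * (((k : ℝ) + 1) ^ 3 * q ^ k)) * hs X) := by
    rw [Finset.sum_mul, Finset.mul_sum]
    refine Finset.sum_congr rfl fun k _ => ?_
    ring
  linarith

theorem hs_hm_q (L : ℕ) (c : ℕ → ℝ) {A B : Matrix (Fin N) (Fin N) ℝ} (hA : A.IsSymm)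
    (hB : B.IsSymm) {q : ℝ} (hq : 1 ≤ q) (h : ‖A‖ ≤ q + q⁻¹) (h' : ‖B‖ ≤ q + q⁻¹) :
    hs (hm L c A - hm L c B) ≤
      (∑ k ∈ Finset.range L, |c k| * (((k : ℝ) + 1) ^ 3 * q ^ k)) * hs (A - B) := by
  have e : hm L c A - hm L c B =
      ∑ k ∈ Finset.range L, c k • (cheb (k + 1) A - cheb (k + 1) B) := by
    unfold hm
    rw [← Finset.sum_sub_distrib]
    refine Finset.sum_congr rfl fun k _ => ?_
    rw [smul_sub]
  rw [e, Finset.sum_mul]
  refine (hs_sum _ _).trans (Finset.sum_le_sum fun k _ => ?_)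
  rw [hs_smul, mul_assoc, (cheb_sub A B k).1]
  refine mul_le_mul_of_nonneg_left ?_ (abs_nonneg _)
  unfold Dk
  refine (hs_sum _ _).trans ?_
  have h2 : ∀ a ∈ Finset.range (k + 1), hs (cheb a A * (A - B) * cheb (k - a) B) ≤
      (‖cheb a A‖ * ‖cheb (k - a) B‖) * hs (A - B) := by
    intro a _
    have e1 := hs_mul_right (cheb a A * (A - B)) (cheb (k - a) B)
    have e2 := mul_le_mul_of_nonneg_right (hs_mul_left (cheb a A) (A - B))
      (norm_nonneg (cheb (k - a) B))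
    calc _ ≤ _ := e1
      _ ≤ _ := e2
      _ = _ := by ring
  refine (Finset.sum_le_sum h2).trans ?_
  rw [← Finset.sum_mul]
  exact mul_le_mul_of_nonneg_right (prod_le hA hB hq h h' k) (hs_nonneg _)

/-- **Row E with explicit constants**, `‖A‖, ‖B‖ ≤ q + 1 / q`. -/
theorem stE_q (L : ℕ) (c : ℕ → ℝ) {A B : Matrix (Fin N) (Fin N) ℝ} (hA : A.IsSymm)
    (hB : B.IsSymm) {q : ℝ} (hq : 1 ≤ q) (h : ‖A‖ ≤ q + q⁻¹) (h' : ‖B‖ ≤ q + q⁻¹) :
    (∀ x : Ix N → ℝ, ∑ e, (KK L c A *ᵥ x) e ^ 2 ≤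
      (∑ k ∈ Finset.range L, |c k| * (((k : ℝ) + 1) ^ 3 * q ^ k)) ^ 2 * ∑ e, x e ^ 2) ∧
    ∑ i, ∑ j, (hm L c A i j - hm L c B i j) ^ 2 ≤
      (∑ k ∈ Finset.range L, |c k| * (((k : ℝ) + 1) ^ 3 * q ^ k)) ^ 2 *
        ∑ i, ∑ j, (A i j - B i j) ^ 2 := by
  refine ⟨fun x => ?_, ?_⟩
  · have h1 := hs_YY_q L c hA hq h (Matrix.of fun i j => x (i, j))
    have h2 := pow_le_pow_left₀ (hs_nonneg _) h1 2
    rw [mul_pow, hs_sq, hs_sq] at h2
    have h3 : ∑ e, (KK L c A *ᵥ x) e ^ 2 =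
        ∑ i, ∑ j, YY L c A (Matrix.of fun i j => x (i, j)) i j ^ 2 := by
      rw [Fintype.sum_prod_type]
      refine Finset.sum_congr rfl fun i _ => Finset.sum_congr rfl fun j _ => ?_
      rw [KK_mulVec]
    have h4 : ∑ i, ∑ j, (Matrix.of fun i j => x (i, j)) i j ^ 2 = ∑ e : Ix N, x e ^ 2 := by
      rw [Fintype.sum_prod_type]
      rfl
    rw [h3, ← h4]
    exact h2
  · have h1 := hs_hm_q L c hA hB hq h h'
    have h2 := pow_le_pow_left₀ (hs_nonneg _) h1 2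
    rw [mul_pow, hs_sq, hs_sq] at h2
    simp only [Matrix.sub_apply] at h2
    exact h2

/-- the constant for bounded coefficients: at most `γ L⁴ q^L` -/
theorem const_le {L : ℕ} {c : ℕ → ℝ} {q γ : ℝ} (hq : 1 ≤ q) (hc : ∀ k < L, |c k| ≤ γ) :
    ∑ k ∈ Finset.range L, |c k| * (((k : ℝ) + 1) ^ 3 * q ^ k) ≤ γ * (L : ℝ) ^ 4 * q ^ L := by
  have h1 : ∀ k ∈ Finset.range L, |c k| * (((k : ℝ) + 1) ^ 3 * q ^ k) ≤
      γ * ((L : ℝ) ^ 3 * q ^ L) := by
    intro k hk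
    have hkL : k + 1 ≤ L := Finset.mem_range.1 hk
    have e1 : (k : ℝ) + 1 ≤ L := by exact_mod_cast hkL
    have e2 : ((k : ℝ) + 1) ^ 3 ≤ (L : ℝ) ^ 3 := pow_le_pow_left₀ (by positivity) e1 3
    have e3 : q ^ k ≤ q ^ L := pow_le_pow_right₀ hq (by omega)
    have hq0 : 0 < q := by linarith
    exact mul_le_mul (hc k (Finset.mem_range.1 hk))
      (mul_le_mul e2 e3 (by positivity) (by positivity)) (by positivity)
      ((abs_nonneg _).trans (hc k (Finset.mem_range.1 hk)))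
  refine (Finset.sum_le_card_nsmul _ _ _ h1).trans (le_of_eq ?_)
  rw [Finset.card_range, nsmul_eq_mul]
  ring

theorem q_pow_le {L : ℕ} (hL : 1 ≤ L) : (1 + 1 / (L : ℝ)) ^ L ≤ 3 := by
  have hL0 : (0 : ℝ) < L := by exact_mod_cast hL
  have h1 : (1 + 1 / (L : ℝ)) ≤ Real.exp (1 / L) := by
    have := Real.add_one_le_exp (1 / (L : ℝ))
    linarith
  have h2 : (1 + 1 / (L : ℝ)) ^ L ≤ Real.exp (1 / L) ^ L :=
    pow_le_pow_left₀ (by positivity) h1 L
  rw [← Real.exp_nat_mul, mul_one_div_cancel hL0.ne'] at h2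
  have := Real.exp_one_lt_d9
  linarith

/-- **Row E for coefficients `|c_k| ≤ 2 γ`, `γ L⁴ ≤ κ₀`, near the edge.** -/
theorem rowE : ∃ κ₀ : ℝ, 0 < κ₀ ∧ ∀ L : ℕ, 1 ≤ L → ∀ γ : ℝ, 0 ≤ γ → γ * (L : ℝ) ^ 4 ≤ κ₀ →
    ∀ c : ℕ → ℝ, (∀ k, |c k| ≤ 2 * γ) → ∀ (N : ℕ) (A B : Matrix (Fin N) (Fin N) ℝ), A.IsSymm →
    B.IsSymm → ‖A‖ ≤ (1 + 1 / (L : ℝ)) + (1 + 1 / (L : ℝ))⁻¹ →
    ‖B‖ ≤ (1 + 1 / (L : ℝ)) + (1 + 1 / (L : ℝ))⁻¹ →
    (∀ x : Ix N → ℝ, ∑ e, (KK L c A *ᵥ x) e ^ 2 ≤ 1 / 4 * ∑ e, x e ^ 2) ∧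
    ∑ i, ∑ j, (hm L c A i j - hm L c B i j) ^ 2 ≤ 1 / 4 * ∑ i, ∑ j, (A i j - B i j) ^ 2 := by
  refine ⟨1 / 12, by norm_num, fun L hL γ hγ hγL c hc N A B hA hB h h' => ?_⟩
  have hL0 : (0 : ℝ) < L := by exact_mod_cast hL
  have hq : 1 ≤ 1 + 1 / (L : ℝ) := by
    have : 0 ≤ 1 / (L : ℝ) := by positivity
    linarith
  have h1 := stE_q L c hA hB hq h h'
  have h2 : ∑ k ∈ Finset.range L, |c k| * (((k : ℝ) + 1) ^ 3 * (1 + 1 / (L : ℝ)) ^ k) ≤ 1 / 2 := by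
    refine (const_le hq fun k _ => hc k).trans ?_
    have h3 := q_pow_le hL
    have h4 : 2 * γ * (L : ℝ) ^ 4 * (1 + 1 / (L : ℝ)) ^ L ≤ 2 * γ * (L : ℝ) ^ 4 * 3 :=
      mul_le_mul_of_nonneg_left h3 (by positivity)
    nlinarith
  have h0 : 0 ≤ ∑ k ∈ Finset.range L, |c k| * (((k : ℝ) + 1) ^ 3 * (1 + 1 / (L : ℝ)) ^ k) :=
    Finset.sum_nonneg fun k _ => by positivity
  have h3 : (∑ k ∈ Finset.range L, |c k| * (((k : ℝ) + 1) ^ 3 * (1 + 1 / (L : ℝ)) ^ k)) ^ 2 ≤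
      1 / 4 := by
    calc _ ≤ (1 / 2 : ℝ) ^ 2 := pow_le_pow_left₀ h0 h2 2
      _ = 1 / 4 := by norm_num
  exact ⟨fun x => (h1.1 x).trans (mul_le_mul_of_nonneg_right h3
      (Finset.sum_nonneg fun _ _ => sq_nonneg _)),
    h1.2.trans (mul_le_mul_of_nonneg_right h3
      (Finset.sum_nonneg fun _ _ => Finset.sum_nonneg fun _ _ => sq_nonneg _))⟩

end Vale.Agent.P146.R2.H432.Tr
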